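import Mathlib

/-! P299, part E: products of linear forms control products of norms. -/

open Set Metric
open scoped ComplexOrder

namespace Vale.Agent.P299

variable {G I : Type} [Fintype G] [Fintype I]

theorem EP_cover : ∃ (r : ℕ) (t : Fin r → I → ℂ), ∀ w : G → I → ℂ, (∀ g, ‖w g‖ = 1) →
    0 < ∑ j, ‖∏ g, ∑ i, t j i * w g i‖ ^ 2 := by
  obtain ⟨s, hs⟩ := (isCompact_univ_pi fun _ : G =>
    isCompact_sphere (0 : I → ℂ) 1).elim_finite_subcover
    (fun t : I → ℂ => {w : G → I → ℂ | ∏ g, ∑ i, t i * w g i ≠ 0})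
    (fun t => isOpen_ne_fun (by fun_prop) continuous_const) fun w hw => by
      obtain ⟨t, ht⟩ := Module.Dual.exists_forall_ne_zero_of_forall_exists (K := ℂ) (M := I → ℂ)
        (fun g => ∑ i, w g i • LinearMap.proj i) fun g => ⟨star (w g), fun h => by
          have h1 : star (w g) ⬝ᵥ w g = 0 := by simpa [dotProduct, mul_comm] using h
          have h2 := hw g trivial
          rw [dotProduct_star_self_eq_zero.1 h1] at h2
          simp at h2⟩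
      exact mem_iUnion.2 ⟨t, Finset.prod_ne_zero_iff.2 fun g _ => by simpa [mul_comm] using ht g⟩
  refine ⟨s.card, fun j => s.equivFin.symm j, fun w hw => ?_⟩
  obtain ⟨x, hx, h⟩ := mem_iUnion₂.1 (hs (a := w) fun g _ => mem_sphere_zero_iff_norm.2 (hw g))
  refine Finset.sum_pos' (fun _ _ => sq_nonneg _) ⟨s.equivFin ⟨x, hx⟩, Finset.mem_univ _, ?_⟩
  simp only [Equiv.symm_apply_apply]
  exact pow_pos (norm_pos_iff.2 h) 2

theorem EP_bound : ∃ (r : ℕ) (t : Fin r → I → ℂ) (C : ℝ), 0 ≤ C ∧ ∀ w : G → I → ℂ,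
    (∀ g, ‖w g‖ = 1) → ∏ g, ∑ i, ‖w g i‖ ^ 2 ≤ C * ∑ j, ‖∏ g, ∑ i, t j i * w g i‖ ^ 2 := by
  obtain ⟨r, t, h1⟩ := EP_cover (G := G) (I := I)
  have c1 : Continuous fun w : G → I → ℂ => ∏ g, ∑ i, ‖w g i‖ ^ 2 := by fun_prop
  have c2 : Continuous fun w : G → I → ℂ => ∑ j, ‖∏ g, ∑ i, t j i * w g i‖ ^ 2 := by fun_prop
  obtain ⟨C, hC⟩ := (isCompact_univ_pi fun _ : G =>
    isCompact_sphere (0 : I → ℂ) 1).bddAbove_image (c1.continuousOn.div c2.continuousOn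
      fun w hw => (h1 w fun g => mem_sphere_zero_iff_norm.1 (hw g trivial)).ne')
  refine ⟨r, t, max C 0, le_max_right _ _, fun w hw => ?_⟩
  rw [← div_le_iff₀ (h1 w hw)]
  exact le_max_of_le_left (hC (mem_image_of_mem _ fun g _ => mem_sphere_zero_iff_norm.2 (hw g)))

theorem prod_le_sum (G I : Type) [Fintype G] [Fintype I] :
    ∃ (r : ℕ) (t : Fin r → I → ℂ) (C : ℝ), ∀ w : G → I → ℂ,
      ∏ g, ∑ i, ‖w g i‖ ^ 2 ≤ C * ∑ j, ‖∏ g, ∑ i, t j i * w g i‖ ^ 2 := by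
  obtain ⟨r, t, C, hC, h1⟩ := EP_bound (G := G) (I := I)
  refine ⟨r, t, C, fun w => ?_⟩
  by_cases h : ∃ g, w g = 0
  · obtain ⟨g, hg⟩ := h
    rw [Finset.prod_eq_zero (Finset.mem_univ g) (by simp [hg])]
    exact mul_nonneg hC (Finset.sum_nonneg fun _ _ => sq_nonneg _)
  push Not at h
  obtain ⟨c, hc, h2⟩ : ∃ c : G → ℂ, (∀ g, c g ≠ 0) ∧ ∀ g, ‖c g • w g‖ = 1 :=
    ⟨fun g => (‖w g‖⁻¹ : ℝ), fun g => by simp [h g], fun g => by simp [norm_smul, h g]⟩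
  have h3 := h1 (fun g => c g • w g) h2
  have e1 : ∀ g, ∑ i, ‖(c g • w g) i‖ ^ 2 = ‖c g‖ ^ 2 * ∑ i, ‖w g i‖ ^ 2 := fun g => by
    simp only [Pi.smul_apply, norm_smul, mul_pow, Finset.mul_sum]
  have e2 : ∀ j g, ∑ i, t j i * (c g • w g) i = c g * ∑ i, t j i * w g i := fun j g => by
    simp only [Pi.smul_apply, smul_eq_mul, Finset.mul_sum, mul_left_comm]
  simp only [e1, e2, Finset.prod_mul_distrib, norm_mul, mul_pow] at h3
  rw [← Finset.mul_sum, mul_left_comm, norm_prod, ← Finset.prod_pow] at h3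
  exact le_of_mul_le_mul_left h3 (Finset.prod_pos fun g _ => pow_pos (norm_pos_iff.2 (hc g)) 2)

end Vale.Agent.P299
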