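import Vale.Agent.P271A.HormX
import Vale.Agent.P271A.Wt
import Vale.Agent.P271.Sieg

/-! P299, part E(h): functions that are locally squared norms of holomorphic functions. -/

open MeasureTheory Set Filter Topology
open scoped ContDiff ENNReal ComplexConjugate

noncomputable section

namespace Vale.Agent.P299

open Vale.Agent.P271 Vale.Agent.P271A

variable {n : ℕ} {X : Type} [TopologicalSpace X] [T2Space X] [CompactSpace X] [ConnectedSpace X]
  [MeasurableSpace X] [BorelSpace X] {M : Model n X} {β : X → ℝ}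

/-- `β` is locally the squared norm of a holomorphic function for a smooth metric. -/
def LocB (A : Atl n X) (β : X → ℝ) : Prop :=
  ∀ p, ∃ a, p ∈ (A.e a).source ∧ ∃ O ∈ 𝓝 (A.e a p), ∃ (B : Cn n → ℂ) (ψ : Cn n → ℝ),
    AnalyticOnNhd ℂ B O ∧ ContDiffOn ℝ ∞ ψ O ∧
      ∀ z ∈ O, β ((A.e a).symm z) = ‖B z‖ ^ 2 * Real.exp (-ψ z)

omit [T2Space X] [CompactSpace X] [ConnectedSpace X] [MeasurableSpace X] [BorelSpace X] in
theorem LocB.nonneg {A : Atl n X} (h : LocB A β) (p : X) : 0 ≤ β p := by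
  obtain ⟨a, ha, O, hO, B, ψ, -, -, e⟩ := h p
  have := e _ (mem_of_mem_nhds hO)
  rw [(A.e a).left_inv ha] at this
  rw [this]
  positivity

omit [T2Space X] [CompactSpace X] [MeasurableSpace X] [BorelSpace X] in
/-- Hint: the open set `{p | ∀ᶠ q in 𝓝 p, β q = 0}` is closed: at a point of its closure take a ball in
`O ∩ target` and use `AnalyticOnNhd.eqOn_zero_of_preconnected_of_eventuallyEq_zero`;
`isClopen_iff`. -/
theorem LocB.dense {A : Atl n X} (h : LocB A β) (hne : β ≠ 0) : Dense {p | β p ≠ 0} := by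
  have ho : IsOpen {p | ∀ᶠ q in 𝓝 p, β q = 0} := isOpen_setOfPred_eventually_nhds
  have hc : IsClosed {p | ∀ᶠ q in 𝓝 p, β q = 0} := by
    refine isClosed_of_closure_subset fun x hx => ?_
    obtain ⟨a, hxa, O, hO, B, ψ, hB, -, e⟩ := h x
    obtain ⟨r, hr, hU0⟩ := Metric.mem_nhds_iff.1 hO
    have hU : (A.e a).source ∩ A.e a ⁻¹' Metric.ball (A.e a x) r ∈ 𝓝 x :=
      inter_mem ((A.e a).open_source.mem_nhds hxa)
        ((A.e a).continuousAt hxa (Metric.ball_mem_nhds _ hr))
    obtain ⟨y, hy, hy0⟩ := mem_closure_iff_nhds.1 hx _ hU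
    have h1 : B =ᶠ[𝓝 (A.e a y)] 0 := by
      have h2 := (A.e a).continuousAt_symm ((A.e a).map_source hy.1)
      rw [ContinuousAt, (A.e a).left_inv hy.1] at h2
      filter_upwards [h2.eventually hy0, Metric.isOpen_ball.mem_nhds hy.2] with w hw hw'
      rw [e w (hU0 hw')] at hw
      simpa using hw
    have h3 := (hB.mono hU0).eqOn_zero_of_preconnected_of_eventuallyEq_zero
      (convex_ball _ _).isPreconnected hy.2 h1
    filter_upwards [hU] with q hq
    have h4 := e _ (hU0 hq.2)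
    rw [(A.e a).left_inv hq.1, h3 hq.2] at h4
    simpa using h4
  refine dense_iff_inter_open.2 fun U hU ⟨p, hp⟩ => ?_
  by_contra h1
  have h5 := IsClopen.eq_univ ⟨hc, ho⟩ ⟨p, by
    filter_upwards [hU.mem_nhds hp] with q hq
    by_contra h2
    exact h1 ⟨q, hq, h2⟩⟩
  refine hne (funext fun q => ?_)
  have h6 : q ∈ {p | ∀ᶠ q in 𝓝 p, β q = 0} := h5 ▸ mem_univ q
  exact Filter.Eventually.self_of_nhds (p := fun q => β q = 0) h6

/-- Hint: copy the proof of `extendX` (P271A/Ext.lean).  Near `p` take a ball `U ⊆ O ∩ target` whose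
closure is also inside; `extendE` with `f = B`, `h z = H z / B z`, `H = M.loc a (F a * g)`;
`‖H / B‖ ^ 2 = ‖F a‖ ^ 2 * exp (-ψ) / ‖k a‖ ^ 2 * (‖g‖ ^ 2 / β * ‖k a‖ ^ 2)`, `Model.lintegral_chart`.
The extension is bounded near `e a p`, which gives the bound at the points near `p` with `β ≠ 0`;
`isCompact_univ.induction_on` makes the constant uniform; `LocB.dense` and continuity
(`Atl.continuous_norm_of_mem`, `Atl.Sm.continuous`, `Dense.induction_on`) finish. -/
theorem LocB.bound (h : LocB M.toAtl β) (hb : M.Sm β) (hne : β ≠ 0) {F : M.ι → X → ℂ}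
    (hF : M.IsGauge F) {g : X → ℂ} (hg : g ∈ M.H0 F)
    (hL : ∫⁻ p, ENNReal.ofReal (‖g p‖ ^ 2 / β p) ∂M.μ < ⊤) :
    ∃ C : ℝ, ∀ p, ‖g p‖ ^ 2 ≤ C * β p := by
  have hgc := Atl.continuous_norm_of_mem hF (Atl.H0_le_Sec hg)
  have hm : Measurable fun p => ENNReal.ofReal (‖g p‖ ^ 2 / β p) :=
    ((hgc.measurable.pow_const 2).div hb.continuous.measurable).ennreal_ofReal
  have loc : ∀ p, ∃ C : ℝ, ∀ᶠ q in 𝓝 p, β q ≠ 0 → ‖g q‖ ^ 2 ≤ C * β q := by
    intro p
    obtain ⟨a, ha, O, hO, B, ψ, hB, hψ, e⟩ := h p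
    obtain ⟨r, hr, hU0⟩ := Metric.mem_nhds_iff.1
      (inter_mem hO ((M.e a).open_target.mem_nhds ((M.e a).map_source ha)))
    have hLK : ∀ K ⊆ Metric.ball (M.e a p) r, IsCompact K →
        ∫⁻ z in K, ENNReal.ofReal (‖M.loc a (fun q => F a q * g q) z / B z‖ ^ 2) < ⊤ := by
      intro K hKU hK
      have hKt : K ⊆ (M.e a).target := fun z hz => (hU0 (hKU hz)).2
      have hKO : K ⊆ O := fun z hz => (hU0 (hKU hz)).1
      have hs : ContinuousOn (M.e a).symm K := (M.e a).continuousOn_symm.mono hKt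
      have hmap : MapsTo (M.e a).symm K (M.e a).source := fun z hz => (M.e a).map_target (hKt hz)
      have hkne : ∀ z ∈ K, ‖M.k a ((M.e a).symm z)‖ ≠ 0 := fun z hz =>
        norm_ne_zero_iff.2 (M.k_gauge.ne a _ (hmap hz))
      obtain ⟨C, hC⟩ := hK.exists_bound_of_continuousOn
        (((((Atl.continuousOn_norm_gauge hF a).comp hs hmap).div
          ((Atl.continuousOn_norm_gauge M.k_gauge a).comp hs hmap) hkne).pow 2).mul
          (Real.continuous_exp.comp_continuousOn (hψ.continuousOn.mono hKO).neg))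
      have h3 := M.lintegral_chart a hm
      calc ∫⁻ z in K, ENNReal.ofReal (‖M.loc a (fun q => F a q * g q) z / B z‖ ^ 2)
          ≤ ∫⁻ z in K, ENNReal.ofReal C *
            (ENNReal.ofReal (‖g ((M.e a).symm z)‖ ^ 2 / β ((M.e a).symm z)) *
              ENNReal.ofReal (‖M.k a ((M.e a).symm z)‖ ^ 2)) := by
            refine setLIntegral_mono' hK.measurableSet fun z hz => ?_
            have h4 : (‖F a ((M.e a).symm z)‖ / ‖M.k a ((M.e a).symm z)‖) ^ 2 * Real.exp (-ψ z) ≤ C :=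
              (le_abs_self _).trans (hC z hz)
            have h6 : 0 ≤ ‖g ((M.e a).symm z)‖ ^ 2 / β ((M.e a).symm z) :=
              div_nonneg (sq_nonneg _) (h.nonneg _)
            rw [← ENNReal.ofReal_mul h6, ← ENNReal.ofReal_mul (le_trans (by positivity) h4)]
            refine ENNReal.ofReal_le_ofReal ?_
            have h5 := mul_le_mul_of_nonneg_right h4
              (mul_nonneg h6 (sq_nonneg ‖M.k a ((M.e a).symm z)‖))
            refine le_trans (le_of_eq ?_) h5
            have := hkne z hz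
            simp only [Atl.loc, norm_mul, norm_div, e z (hKO hz)]
            by_cases h7 : ‖B z‖ = 0
            · simp [h7]
            · field_simp
        _ ≤ ENNReal.ofReal C * ∫⁻ p, ENNReal.ofReal (‖g p‖ ^ 2 / β p) ∂M.μ := by
            rw [lintegral_const_mul' _ _ ENNReal.ofReal_ne_top]
            refine mul_le_mul' le_rfl ((lintegral_mono_set hKt).trans ?_)
            rw [← h3]
            exact setLIntegral_le_lintegral _ _
        _ < ⊤ := ENNReal.mul_lt_top ENNReal.ofReal_lt_top hL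
    obtain ⟨H, h1, h2, -⟩ := extendE Metric.isOpen_ball (f := B)
      (h := fun z => M.loc a (fun q => F a q * g q) z / B z)
      (hB.mono fun z hz => (hU0 hz).1).differentiableOn
      (fun z hz hfz => ((hg a z (hU0 hz).2).div (hB z (hU0 hz).1) hfz).differentiableAt)
      (fun z _ hfz => by simp [hfz]) hLK
    have c0 := (M.e a).continuousAt ha
    have c1 : ContinuousAt (fun q => H (M.e a q)) p :=
      ContinuousAt.comp (f := M.e a) (h1.differentiableAt (Metric.ball_mem_nhds _ hr)).continuousAt c0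
    have c2 : ContinuousAt (fun q => ψ (M.e a q)) p :=
      ContinuousAt.comp (f := M.e a) (hψ.continuousOn.continuousAt hO) c0
    have c3 : ContinuousAt (fun q => (‖H (M.e a q)‖ / ‖F a q‖) ^ 2 * Real.exp (ψ (M.e a q))) p :=
      ((c1.norm.div ((Atl.continuousOn_norm_gauge hF a).continuousAt
        ((M.e a).open_source.mem_nhds ha)) (norm_ne_zero_iff.2 (hF.ne a p ha))).pow 2).mul
        (Real.continuous_exp.continuousAt.comp c2)
    refine ⟨(‖H (M.e a p)‖ / ‖F a p‖) ^ 2 * Real.exp (ψ (M.e a p)) + 1, ?_⟩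
    filter_upwards [c3.eventually (ge_mem_nhds (lt_add_one _)), (M.e a).open_source.mem_nhds ha,
      c0 (Metric.ball_mem_nhds _ hr)] with q q1 q2 q3 q4
    have e1 := e _ (hU0 q3).1
    rw [(M.e a).left_inv q2] at e1
    have e2 : B (M.e a q) ≠ 0 := fun h0 => q4 (by simp [e1, h0])
    refine le_trans (le_of_eq ?_) (mul_le_mul_of_nonneg_right q1 (h.nonneg q))
    have e3 := norm_ne_zero_iff.2 e2
    have e4 := norm_ne_zero_iff.2 (hF.ne a q q2)
    rw [h2 _ q3 e2, M.loc_e a _ q2, e1, Real.exp_neg, norm_div, norm_mul]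
    field_simp
  obtain ⟨C, hC⟩ : ∃ C : ℝ, ∀ q ∈ (univ : Set X), β q ≠ 0 → ‖g q‖ ^ 2 ≤ C * β q := by
    refine isCompact_univ.induction_on (p := fun s => ∃ C : ℝ, ∀ q ∈ s, β q ≠ 0 →
      ‖g q‖ ^ 2 ≤ C * β q) ⟨0, by simp⟩ (fun s t hst ⟨C, hC⟩ => ⟨C, fun q hq => hC q (hst hq)⟩)
      (fun s t ⟨C, hC⟩ ⟨C', hC'⟩ => ⟨max C C', fun q hq h0 => ?_⟩) fun p _ => ?_
    · rcases hq with hq | hq
      · exact (hC q hq h0).trans (mul_le_mul_of_nonneg_right (le_max_left _ _) (h.nonneg q))
      · exact (hC' q hq h0).trans (mul_le_mul_of_nonneg_right (le_max_right _ _) (h.nonneg q))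
    · obtain ⟨C, hC⟩ := loc p
      exact ⟨_, mem_nhdsWithin_of_mem_nhds hC, C, fun q hq => hq⟩
  exact ⟨C, fun p => closure_minimal (t := {p | ‖g p‖ ^ 2 ≤ C * β p}) (fun q hq => hC q trivial hq)
    (isClosed_le (hgc.pow 2) (continuous_const.mul hb.continuous)) (h.dense hne p)⟩

end Vale.Agent.P299
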