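import Vale.Agent.P299.EVa

/-! P299, part E(h): the limit in a finite dimensional space of sections. -/

open MeasureTheory Set Filter Topology
open scoped ContDiff ENNReal ComplexConjugate

noncomputable section

namespace Vale.Agent.P299

open Vale.Agent.P271 Vale.Agent.P271A

variable {n : ℕ} {X : Type} [TopologicalSpace X] [T2Space X] [CompactSpace X] [ConnectedSpace X]
  [MeasurableSpace X] [BorelSpace X] {M : Model n X} {β : X → ℝ}

omit [T2Space X] [ConnectedSpace X] in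
theorem evb_fatou {f : ℕ → X → ℝ} {g : X → ℝ} {K : ℝ} (hf : ∀ k, Continuous (f k))
    (h0 : ∀ k p, 0 ≤ f k p) (hK : ∀ k, ∫ p, f k p ∂M.μ ≤ K)
    (hg : ∀ p, g p = 0 ∨ Tendsto (fun k => f k p) atTop (𝓝 (g p))) :
    ∫⁻ p, ENNReal.ofReal (g p) ∂M.μ < ⊤ := by
  have h1 : ∀ k, ∫⁻ p, ENNReal.ofReal (f k p) ∂M.μ ≤ ENNReal.ofReal K := fun k => by
    rw [← ofReal_integral_eq_lintegral_ofReal
      ((hf k).integrable_of_hasCompactSupport (HasCompactSupport.of_compactSpace _))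
      (Eventually.of_forall (h0 k))]
    exact ENNReal.ofReal_le_ofReal (hK k)
  calc ∫⁻ p, ENNReal.ofReal (g p) ∂M.μ
      ≤ ∫⁻ p, liminf (fun k => ENNReal.ofReal (f k p)) atTop ∂M.μ := by
        refine lintegral_mono fun p => ?_
        rcases hg p with e | e
        · simp [e]
        · exact (ENNReal.tendsto_ofReal e).liminf_eq.ge
    _ ≤ liminf (fun k => ∫⁻ p, ENNReal.ofReal (f k p) ∂M.μ) atTop :=
        lintegral_liminf_le fun k => (hf k).measurable.ennreal_ofReal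
    _ ≤ ENNReal.ofReal K := liminf_le_of_frequently_le' (Frequently.of_forall h1)
    _ < ⊤ := ENNReal.ofReal_lt_top

/-- Hint: `finDim`; basis `e i` of `M.H0 F`, `h k = ∑ c k i • e i` for `ε = 1 / (k + 1)`;
`c₀ ≤ ‖c k‖ ^ 2 * E` (`Atl.exists_bound`), so `c k ≠ 0` and the normalised sections satisfy
`∫ ‖g k‖ ^ 2 / (β + ε) ≤ A * E / c₀`.  `IsCompact.tendsto_subseq` on the unit sphere of
`Fin r → ℂ`; the limit is not zero by linear independence; Fatou (`lintegral_liminf_le`, the norms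
are continuous by `Atl.continuous_norm_of_mem`); pointwise
`ofReal (‖g p‖ ^ 2 / β p) ≤ liminf` (trivial when `β p = 0`). -/
theorem ev_limit {F : M.ι → X → ℂ} (hF : M.IsGauge F) (hb : Continuous β) (h0 : ∀ p, 0 ≤ β p)
    {c₀ A : ℝ} (hc : 0 < c₀) (h : ∀ ε > (0 : ℝ), ε ≤ 1 → ∃ s ∈ M.H0 F,
      c₀ ≤ ∫ p, ‖s p‖ ^ 2 ∂M.μ ∧ ∫ p, ‖s p‖ ^ 2 / (β p + ε) ∂M.μ ≤ A) :
    ∃ g ∈ M.H0 F, g ≠ 0 ∧ ∫⁻ p, ENNReal.ofReal (‖g p‖ ^ 2 / β p) ∂M.μ < ⊤ := by
  have := finDim M.toAtl hF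
  let e := Module.finBasis ℂ (M.H0 F)
  let L : (Fin (Module.finrank ℂ (M.H0 F)) → ℂ) → X → ℂ := fun c p => ∑ i, c i * (e i).1 p
  have hL : ∀ c, L c = (∑ i, c i • e i : M.H0 F) := fun c => by
    funext p
    simp [L, Finset.sum_apply]
  have hm : ∀ c, L c ∈ M.H0 F := fun c => by rw [hL]; exact Subtype.prop _
  have hn : ∀ c, Continuous fun p => ‖L c p‖ := fun c =>
    Atl.continuous_norm_of_mem hF (Atl.H0_le_Sec (hm c))
  choose C hC0 hC using fun i => Atl.exists_bound hF (Atl.H0_le_Sec (e i).2)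
  have hB : ∀ c p, ‖L c p‖ ≤ ‖c‖ * ∑ i, C i := fun c p => by
    rw [Finset.mul_sum]
    refine norm_sum_le_of_le _ fun i _ => ?_
    rw [norm_mul]
    exact mul_le_mul (norm_le_pi_norm c i) (hC i p) (norm_nonneg _) (norm_nonneg _)
  have hE : ∀ c, ∫ p, ‖L c p‖ ^ 2 ∂M.μ ≤ ‖c‖ ^ 2 * (M.μ.real univ * (∑ i, C i) ^ 2) := fun c => by
    calc ∫ p, ‖L c p‖ ^ 2 ∂M.μ ≤ ∫ _, (‖c‖ * ∑ i, C i) ^ 2 ∂M.μ :=
          integral_mono_of_nonneg (Eventually.of_forall fun p => by positivity)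
            (integrable_const _) (Eventually.of_forall fun p => by
              have := hB c p
              simp only
              gcongr)
      _ = _ := by rw [integral_const, smul_eq_mul]; ring
  set E := M.μ.real univ * (∑ i, C i) ^ 2
  have hε : ∀ k : ℕ, (0 : ℝ) < 1 / (k + 1) := fun k => by positivity
  have h1 : ∀ k : ℕ, ∃ d ∈ Metric.sphere (0 : Fin (Module.finrank ℂ (M.H0 F)) → ℂ) 1,
      ∫ p, ‖L d p‖ ^ 2 / (β p + 1 / (k + 1)) ∂M.μ ≤ E / c₀ * A := fun k => by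
    obtain ⟨s, hs, h2, h3⟩ := h _ (hε k) (by
      rw [div_le_one (by positivity)]
      linarith [Nat.cast_nonneg (α := ℝ) k])
    obtain ⟨c, rfl⟩ : ∃ c, L c = s := ⟨e.repr ⟨s, hs⟩, by rw [hL, e.sum_repr]⟩
    have h4 := h2.trans (hE c)
    have h5 : 0 < ‖c‖ := by
      refine (norm_nonneg c).lt_of_ne' fun h6 => ?_
      rw [h6] at h4
      linarith
    have h6 : 0 ≤ ∫ p, ‖L c p‖ ^ 2 / (β p + 1 / (k + 1)) ∂M.μ :=
      integral_nonneg fun p => div_nonneg (sq_nonneg _) (add_nonneg (h0 p) (hε k).le)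
    have h7 : (‖c‖ ^ 2)⁻¹ ≤ E / c₀ := by
      rw [le_div_iff₀ hc, inv_mul_le_iff₀ (by positivity)]
      exact h4
    refine ⟨((‖c‖⁻¹ : ℝ) : ℂ) • c, ?_, ?_⟩
    · rw [mem_sphere_zero_iff_norm, norm_smul, Complex.norm_real, norm_inv, norm_norm,
        inv_mul_cancel₀ h5.ne']
    · have e1 : ∀ p, ‖L (((‖c‖⁻¹ : ℝ) : ℂ) • c) p‖ ^ 2 / (β p + 1 / (k + 1)) =
          (‖c‖ ^ 2)⁻¹ * (‖L c p‖ ^ 2 / (β p + 1 / (k + 1))) := fun p => by
        have e2 : L (((‖c‖⁻¹ : ℝ) : ℂ) • c) p = ((‖c‖⁻¹ : ℝ) : ℂ) * L c p := by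
          simp only [L, Pi.smul_apply, smul_eq_mul, Finset.mul_sum, mul_assoc]
        rw [e2, norm_mul, Complex.norm_real, norm_inv, norm_norm, mul_pow, inv_pow, mul_div_assoc]
      simp only [e1]
      rw [integral_const_mul]
      exact mul_le_mul h7 h3 h6 ((inv_nonneg.2 (sq_nonneg _)).trans h7)
  choose d hd hA using h1
  obtain ⟨a, ha, φ, hφ, ht⟩ := (isCompact_sphere _ _).tendsto_subseq hd
  refine ⟨L a, hm a, fun h2 => ?_, evb_fatou
    (f := fun k p => ‖L (d (φ k)) p‖ ^ 2 / (β p + 1 / (φ k + 1))) (fun k => ?_) (fun k p => ?_)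
    (fun k => hA (φ k)) fun p => ?_⟩
  · have h3 : (∑ i, a i • e i : M.H0 F) = 0 := Subtype.ext (by rw [← hL, h2]; rfl)
    have h4 : a = 0 := funext (Fintype.linearIndependent_iff.1 e.linearIndependent a h3)
    rw [mem_sphere_zero_iff_norm, h4, norm_zero] at ha
    exact zero_ne_one ha
  · exact ((hn _).pow 2).div (hb.add continuous_const) fun p =>
      (add_pos_of_nonneg_of_pos (h0 p) (hε _)).ne'
  · exact div_nonneg (sq_nonneg _) (add_nonneg (h0 p) (hε _).le)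
  · by_cases h2 : β p = 0
    · left
      rw [h2, div_zero]
    · right
      have h3 : Continuous fun c => L c p := by
        simp only [L]
        fun_prop
      have h4 := (tendsto_one_div_add_atTop_nhds_zero_nat (𝕜 := ℝ)).comp hφ.tendsto_atTop
      have h5 := (((h3.tendsto a).comp ht).norm.pow 2).div (h4.const_add (β p)) (by simpa using h2)
      rw [add_zero] at h5
      exact h5

end Vale.Agent.P299
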