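import Vale.Agent.P299.EVa

/-! P299, part E(h): uniform curvature bounds. -/

open MeasureTheory Set Filter Topology Metric
open scoped ContDiff ENNReal ComplexConjugate

noncomputable section

namespace Vale.Agent.P299

open Vale.Agent.P271 Vale.Agent.P271A

variable {n : ℕ} {X : Type} [TopologicalSpace X] {A : Atl n X} {β : X → ℝ}

theorem evc_pt {B : Cn n → ℂ} {ψ : Cn n → ℝ} {z : Cn n} (hB : AnalyticAt ℂ B z)
    (hψ : ContDiffAt ℝ ∞ ψ z) {ε : ℝ} (hε : 0 < ε) (ξ : Cn n) :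
    -|Lev ψ z ξ| ≤ Lev (fun w => Real.log (‖B w‖ ^ 2 * Real.exp (-ψ w) + ε)) z ξ := by
  have e : (fun w => Real.log (‖B w‖ ^ 2 * Real.exp (-ψ w) + ε)) =
      fun w => Real.log (ε * Real.exp (ψ w) + ‖B w‖ ^ 2) - ψ w := by
    funext w
    have h1 : ‖B w‖ ^ 2 * Real.exp (-ψ w) + ε =
        (ε * Real.exp (ψ w) + ‖B w‖ ^ 2) * Real.exp (-ψ w) := by
      rw [add_mul, mul_assoc, ← Real.exp_add, add_neg_cancel, Real.exp_zero]; ring
    rw [h1, Real.log_mul (by positivity) (Real.exp_pos _).ne', Real.log_exp]; ring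
  have s1 : ContDiffAt ℝ ∞ (fun w => Real.exp (ψ w)) z := hψ.exp
  have s2 : ContDiffAt ℝ ∞ (fun w => ε * Real.exp (ψ w)) z := contDiffAt_const.mul s1
  have s3 := contDiffAt_normSq hB
  have hp : 0 < ε * Real.exp (ψ z) := by positivity
  have hq : 0 < ε * Real.exp (ψ z) + ‖B z‖ ^ 2 := by positivity
  have d1 : dz ξ (fun w => ((ε * Real.exp (ψ w) + ‖B w‖ ^ 2 : ℝ) : ℂ)) z =
      (ε * Real.exp (ψ z) : ℝ) * dz ξ (fun w => (ψ w : ℂ)) z + conj (B z) * fderiv ℂ B z ξ := by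
    rw [← dz_normSq hB.differentiableAt, ← dz_comp (χ := fun t => ε * Real.exp t)
      (hψ.differentiableAt (by simp)) ((Real.hasDerivAt_exp _).const_mul ε),
      ← dz_add (Brid_ofReal_diff (s2.differentiableAt (by simp)))
        (Brid_ofReal_diff (s3.differentiableAt (by simp)))]
    simp only [Complex.ofReal_add]
  rw [e, Lev_sub ((s2.add s3).log hq.ne') hψ, Lev_log (s2.add s3) hq, Lev_add s2 s3,
    Lev_const_mul s1, Lev_normSq hB, Lev_comp (χ := Real.exp) (χ₁ := Real.exp) hψ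
      (Eventually.of_forall Real.hasDerivAt_exp) (Real.hasDerivAt_exp _), d1]
  set g := ε * Real.exp (ψ z)
  set d := dz ξ (fun w => (ψ w : ℂ)) z
  have key := scal1 (P := g) (q := ‖B z‖ ^ 2) (P2 := g * ‖d‖ ^ 2) (q2 := ‖fderiv ℂ B z ξ‖ ^ 2)
    (P1 := g * d) (q1 := conj (B z) * fderiv ℂ B z ξ) hp (sq_nonneg _)
    (by rw [norm_mul, Complex.norm_real, Real.norm_of_nonneg hp.le]; exact le_of_eq (by ring))
    (by rw [norm_mul, Complex.norm_conj, mul_pow]) (sq_nonneg _)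
  have e2 : ε * (Real.exp (ψ z) * Lev ψ z ξ + Real.exp (ψ z) * ‖d‖ ^ 2) =
      g * Lev ψ z ξ + g * ‖d‖ ^ 2 := by simp only [g]; ring
  rw [e2]
  have h1 : ‖(g : ℂ) * d + conj (B z) * fderiv ℂ B z ξ‖ ^ 2 / (g + ‖B z‖ ^ 2) ^ 2 ≤
      (g * ‖d‖ ^ 2 + ‖fderiv ℂ B z ξ‖ ^ 2) / (g + ‖B z‖ ^ 2) := by
    rw [div_le_div_iff₀ (by positivity) hq]
    nlinarith
  have h2 : -|Lev ψ z ξ| ≤ g * Lev ψ z ξ / (g + ‖B z‖ ^ 2) - Lev ψ z ξ := by
    rw [le_sub_iff_add_le, le_div_iff₀ hq]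
    nlinarith [le_abs_self (Lev ψ z ξ), abs_nonneg (Lev ψ z ξ), sq_nonneg ‖B z‖]
  have h3 : (g * Lev ψ z ξ + g * ‖d‖ ^ 2 + ‖fderiv ℂ B z ξ‖ ^ 2) / (g + ‖B z‖ ^ 2) =
      g * Lev ψ z ξ / (g + ‖B z‖ ^ 2) +
        (g * ‖d‖ ^ 2 + ‖fderiv ℂ B z ξ‖ ^ 2) / (g + ‖B z‖ ^ 2) := by ring
  linarith

theorem evc_unif [CompactSpace X] (P : Pol A) (hb : A.Sm β) (h : LocB A β) :
    ∃ C : ℝ, 0 ≤ C ∧ ∀ p, ∃ a, p ∈ (A.e a).source ∧ ∀ ξ,
      ‖Db A β a p ξ‖ ^ 2 ≤ C * Lv P (fun _ => 0) 1 a p ξ ∧ ∀ ε > (0 : ℝ),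
        -(C * Lv P (fun _ => 0) 1 a p ξ) ≤
          Lev (A.loc a fun q => Real.log (β q + ε)) (A.e a p) ξ := by
  suffices key : ∃ C : ℝ, 0 ≤ C ∧ ∀ p ∈ (univ : Set X), ∃ a, p ∈ (A.e a).source ∧ ∀ ξ,
      ‖Db A β a p ξ‖ ^ 2 ≤ C * Lv P (fun _ => 0) 1 a p ξ ∧ ∀ ε > (0 : ℝ),
        -(C * Lv P (fun _ => 0) 1 a p ξ) ≤
          Lev (A.loc a fun q => Real.log (β q + ε)) (A.e a p) ξ by
    simpa using key
  refine isCompact_univ.induction_on ⟨0, le_rfl, by simp⟩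
    (fun s t hst ⟨C, h0, hC⟩ => ⟨C, h0, fun p hp => hC p (hst hp)⟩) ?_ fun x _ => ?_
  · rintro s t ⟨C, h0, hC⟩ ⟨C', h0', hC'⟩
    refine ⟨C + C', add_nonneg h0 h0', ?_⟩
    rintro p (hp | hp)
    · obtain ⟨a, ha, h1⟩ := hC p hp
      refine ⟨a, ha, fun ξ => ?_⟩
      have := mul_nonneg h0' (Lv_fs_nonneg P ha (ξ := ξ))
      exact ⟨by linarith [(h1 ξ).1], fun ε hε => by linarith [(h1 ξ).2 ε hε]⟩
    · obtain ⟨a, ha, h1⟩ := hC' p hp
      refine ⟨a, ha, fun ξ => ?_⟩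
      have := mul_nonneg h0 (Lv_fs_nonneg P ha (ξ := ξ))
      exact ⟨by linarith [(h1 ξ).1], fun ε hε => by linarith [(h1 ξ).2 ε hε]⟩
  obtain ⟨a, ha, O, hO, B, ψ, hB, hψ, e⟩ := h x
  have hU : IsOpen (interior O ∩ (A.e a).target) := isOpen_interior.inter (A.e a).open_target
  obtain ⟨r, hr, hK⟩ := nhds_basis_closedBall.mem_iff.1
    (hU.mem_nhds ⟨mem_interior_iff_mem_nhds.2 hO, (A.e a).map_source ha⟩)
  have hψ' : ContDiffOn ℝ ∞ ψ (interior O ∩ (A.e a).target) :=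
    hψ.mono (inter_subset_left.trans interior_subset)
  have hS : IsCompact ((A.e a).symm '' closedBall (A.e a x) r) :=
    (isCompact_closedBall _ _).image_of_continuousOn
      ((A.e a).continuousOn_symm.mono (hK.trans inter_subset_right))
  have hSa : (A.e a).symm '' closedBall (A.e a x) r ⊆ (A.e a).source := by
    rintro _ ⟨z, hz, rfl⟩; exact (A.e a).map_target (hK hz).2
  obtain ⟨C₁, h1, hC₁⟩ := exists_dzb_le P hS hSa hb
  have hl : ContDiffOn ℝ ∞ (A.loc a fun q => Real.log (‖P.u a q‖ ^ 2)) (A.e a).target :=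
    fun z hz => by
      have := lg_at P.gauge ((A.e a).map_target hz)
      rw [(A.e a).right_inv hz] at this
      exact this.contDiffWithinAt
  obtain ⟨C₂, h2, hC₂⟩ := exists_dom (isCompact_closedBall (A.e a x) r)
    (p := Lev (A.loc a fun q => Real.log (‖P.u a q‖ ^ 2))) (q := fun z ξ => |Lev ψ z ξ|)
    ((continuousOn_Lev (A.e a).open_target hl).mono
      (prod_mono (hK.trans inter_subset_right) subset_rfl))
    ((continuousOn_Lev hU hψ').abs.mono (prod_mono hK subset_rfl))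
    (fun z hz c ξ => Lev_smul (hl.contDiffAt ((A.e a).open_target.mem_nhds (hK hz).2)) c)
    (fun z hz c ξ => by
      rw [Lev_smul (hψ'.contDiffAt (hU.mem_nhds (hK hz))), abs_mul, abs_of_nonneg (sq_nonneg _)])
    (fun z hz ξ hξ => by
      have := Lv_fs_pos P ((A.e a).map_target (hK hz).2) hξ
      rwa [Lv_fs P ((A.e a).map_target (hK hz).2), (A.e a).right_inv (hK hz).2] at this)
  refine ⟨(A.e a).source ∩ A.e a ⁻¹' closedBall (A.e a x) r, mem_nhdsWithin_of_mem_nhds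
    (inter_mem ((A.e a).open_source.mem_nhds ha) ((A.e a).continuousAt ha
      (closedBall_mem_nhds _ hr))), C₁ + C₂, by positivity, fun p hp => ⟨a, hp.1, fun ξ => ?_⟩⟩
  have h3 := Lv_fs_nonneg P hp.1 (ξ := ξ)
  have h4 := hC₁ p ⟨_, hp.2, (A.e a).left_inv hp.1⟩ ξ
  have h5 := hC₂ _ hp.2 ξ
  rw [← Lv_fs P hp.1] at h5
  refine ⟨by nlinarith, fun ε hε => ?_⟩
  have hO' : O ∈ 𝓝 (A.e a p) := mem_interior_iff_mem_nhds.1 (hK hp.2).1
  have h6 := evc_pt (hB _ (mem_of_mem_nhds hO')) (hψ.contDiffAt hO') hε ξ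
  rw [Lev_congr (Ψ := fun w => Real.log (‖B w‖ ^ 2 * Real.exp (-ψ w) + ε))
    (by filter_upwards [hO'] with w hw; simp only [Atl.loc, e w hw])]
  nlinarith

end Vale.Agent.P299
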