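import Vale.Agent.P271.IntD

/-! P299, part G: symmetric functions on the fibres of a finite projection are polynomials.

Hints. Template: `exists_symm` in P271/IntC. `G1_card`: by `local_sheets` the cardinality of the
fibre is locally constant on the preconnected set `D ≠ 0` (`isPreconnected_eval_ne`). `G1_lag`,
`G1_chi`: apply `exists_poly` in `n + 1` variables `x`, `S = x 0`, `y = Fin.tail x`, with
`MvPolynomial.rename Fin.succ D`, to the function on the right hand side (define it with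
`(IntC_finite hu h hy).toFinset` under a `dite`, or with `Set.Finite.toFinset`); it is analytic by
`local_sheets` (near `y0` the finset is `Finset.univ.map ⟨fun l => ψ l y, _⟩`; use `j = 1`,
`pow_one` for `ϑ`) and bounded by `IntC_bound`: every factor `S - ϑ p / σ p` has norm at most
`(1 + B) * (1 + ‖x‖)`. -/

open Set Filter Topology

noncomputable section

namespace Vale.Agent.P299

open Vale.Agent.P271

variable {n : ℕ} {X : Type} [TopologicalSpace X] [T2Space X] [CompactSpace X]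
  {A : Atl n X} {u : A.ι → X → ℂ} {σ : X → ℂ} {w : Fin n → X → ℂ} {D : MvPolynomial (Fin n) ℂ}

open Classical in
/-- The fibre as a finite set. -/
def G1_F (σ : X → ℂ) (w : Fin n → X → ℂ) (y : Cn n) : Finset X :=
  if h : (fib σ w y).Finite then h.toFinset else ∅

omit [TopologicalSpace X] [T2Space X] [CompactSpace X] in
theorem G1_F_eq {y : Cn n} {F : Finset X} (hF : (F : Set X) = fib σ w y) : G1_F σ w y = F := by
  have h1 : (fib σ w y).Finite := hF ▸ F.finite_toSet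
  rw [G1_F, dif_pos h1]
  ext p
  rw [Set.Finite.mem_toFinset, ← hF, Finset.mem_coe]

omit [TopologicalSpace X] [T2Space X] [CompactSpace X] in
theorem G1_F_range {y : Cn n} {N : ℕ} {ψ : Fin N → X} (hψ : Function.Injective ψ)
    (h : fib σ w y = range ψ) : G1_F σ w y = Finset.univ.map ⟨ψ, hψ⟩ := by
  refine G1_F_eq ?_
  rw [h]
  ext q
  simp

omit [T2Space X] in
theorem G1_F_coe (hu : A.IsGauge u) (h : Proj A u σ w D) {y : Cn n}
    (hy : MvPolynomial.eval y D ≠ 0) : (G1_F σ w y : Set X) = fib σ w y := by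
  rw [G1_F, dif_pos (IntC_finite hu h hy), Set.Finite.coe_toFinset]

theorem G1_tail (x : Cn (n + 1)) :
    AnalyticAt ℂ (fun x : Cn (n + 1) => (Fin.tail x : Cn n)) x :=
  analyticAt_pi_iff.2 fun i =>
    (ContinuousLinearMap.proj (R := ℂ) (φ := fun _ : Fin (n + 1) => ℂ) i.succ).analyticAt x

theorem G1_head (x : Cn (n + 1)) : AnalyticAt ℂ (fun x : Cn (n + 1) => x 0) x :=
  (ContinuousLinearMap.proj (R := ℂ) (φ := fun _ : Fin (n + 1) => ℂ) 0).analyticAt x

theorem G1_norm_tail (x : Cn (n + 1)) : ‖(Fin.tail x : Cn n)‖ ≤ ‖x‖ :=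
  (pi_norm_le_iff_of_nonneg (norm_nonneg x)).2 fun i => norm_le_pi_norm x i.succ

theorem G1_poly {c : ℂ → Cn n → ℂ} {C : ℝ} {e : ℕ}
    (hc : ∀ x : Cn (n + 1), MvPolynomial.eval (Fin.tail x) D ≠ 0 →
      AnalyticAt ℂ (fun x : Cn (n + 1) => c (x 0) (Fin.tail x)) x)
    (hb : ∀ x : Cn (n + 1), MvPolynomial.eval (Fin.tail x) D ≠ 0 →
      ‖c (x 0) (Fin.tail x)‖ ≤ C * (1 + ‖x‖) ^ e) :
    ∃ L : MvPolynomial (Fin (n + 1)) ℂ, L.totalDegree ≤ e ∧ ∀ (S : ℂ) (y : Cn n),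
      MvPolynomial.eval y D ≠ 0 → MvPolynomial.eval (Fin.cons S y) L = c S y := by
  have ev : ∀ x : Cn (n + 1), MvPolynomial.eval x (MvPolynomial.rename Fin.succ D) =
      MvPolynomial.eval (Fin.tail x) D := fun x => by
    rw [MvPolynomial.eval_rename]
    rfl
  obtain ⟨L, h1, h2⟩ := exists_poly (D := MvPolynomial.rename Fin.succ D)
    (c := fun x : Cn (n + 1) => c (x 0) (Fin.tail x)) (C := C) (e := e)
    (fun x hx => hc x (by rw [← ev]; exact hx)) fun x hx => hb x (by rw [← ev]; exact hx)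
  refine ⟨L, h1, fun S y hy => ?_⟩
  rw [← h2 (Fin.cons S y) (by rw [ev, Fin.tail_cons]; exact hy)]
  simp

omit [T2Space X] in
theorem G1_fac (hu : A.IsGauge u) (h : Proj A u σ w D) {ϑ : X → ℂ} (hϑ : ϑ ∈ A.H0 u) :
    ∃ B : ℝ, 1 ≤ B ∧ ∀ x : Cn (n + 1), ∀ p ∈ fib σ w (Fin.tail x),
      ‖x 0 - ϑ p / σ p‖ ≤ B * (1 + ‖x‖) := by
  obtain ⟨B, hB, hb⟩ := IntC_bound hu h (j := 1) (t := ϑ) (by rwa [pow_one])
  refine ⟨1 + B, by linarith, fun x p hp => ?_⟩
  have h1 := hb _ p hp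
  rw [pow_one, pow_one] at h1
  have h2 := norm_le_pi_norm x 0
  have h3 := G1_norm_tail x
  have h4 := norm_sub_le (x 0) (ϑ p / σ p)
  nlinarith

omit [TopologicalSpace X] [T2Space X] [CompactSpace X] in
theorem G1_prod_le {F : Finset X} {g : X → ℂ} {R : ℝ} {N : ℕ} (hR : 1 ≤ R) (hN : F.card ≤ N)
    (hg : ∀ p ∈ F, ‖g p‖ ≤ R) : ‖∏ p ∈ F, g p‖ ≤ R ^ N := by
  rw [norm_prod]
  refine (Finset.prod_le_prod (fun _ _ => norm_nonneg _) hg).trans ?_
  rw [Finset.prod_const]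
  exact pow_le_pow_right₀ hR hN

theorem G1_sheets (hu : A.IsGauge u) (h : Proj A u σ w D) {x0 : Cn (n + 1)}
    (hy : MvPolynomial.eval (Fin.tail x0) D ≠ 0) :
    ∃ (N : ℕ) (ψ : Fin N → Cn (n + 1) → X),
      (∀ᶠ x in 𝓝 x0, ∃ hi : Function.Injective fun l => ψ l x,
        G1_F σ w (Fin.tail x) = Finset.univ.map ⟨fun l => ψ l x, hi⟩) ∧
      ∀ l, ∀ {j : ℕ} {t : X → ℂ}, t ∈ A.H0 (u ^ j) →
        AnalyticAt ℂ (fun x => t (ψ l x) / σ (ψ l x) ^ j) x0 := by
  obtain ⟨N, ψ, h1, h2⟩ := local_sheets hu h hy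
  refine ⟨N, fun l x => ψ l (Fin.tail x), ?_, fun l j t ht => ?_⟩
  · filter_upwards [(G1_tail x0).continuousAt.eventually h1] with x hx
    exact ⟨hx.2, G1_F_range hx.2 hx.1⟩
  · exact AnalyticAt.comp (f := fun x : Cn (n + 1) => (Fin.tail x : Cn n)) (h2 l ht) (G1_tail x0)

theorem G1_card (hu : A.IsGauge u) (h : Proj A u σ w D) :
    ∃ N : ℕ, ∀ y, MvPolynomial.eval y D ≠ 0 → ∀ F : Finset X, (F : Set X) = fib σ w y →
      F.card = N :=by
  have hcont : ContinuousOn (fun y => (G1_F σ w y).card) {y | MvPolynomial.eval y D ≠ 0} := by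
    intro y0 hy
    obtain ⟨N, ψ, h1, -⟩ := local_sheets hu h hy
    refine (ContinuousAt.congr (continuousAt_const (y := N)) ?_).continuousWithinAt
    filter_upwards [h1] with y h2
    rw [G1_F_range h2.2 h2.1]
    simp
  obtain ⟨p0, -, hy0⟩ := h.ne
  refine ⟨(G1_F σ w fun l => w l p0 / σ p0).card, fun y hy F hF => ?_⟩
  rw [← G1_F_eq hF]
  exact (isPreconnected_eval_ne D).constant hcont hy hy0

open Classical in
/-- The Lagrange interpolation polynomial of a section along the fibres. -/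
theorem G1_lag (hu : A.IsGauge u) (h : Proj A u σ w D) {ϑ : X → ℂ} (hϑ : ϑ ∈ A.H0 u) :
    ∃ N : ℕ, ∀ (l : ℕ), ∀ t ∈ A.H0 (u ^ l), ∃ L : MvPolynomial (Fin (n + 1)) ℂ,
      L.totalDegree ≤ l + N ∧ ∀ (S : ℂ) (y : Cn n), MvPolynomial.eval y D ≠ 0 →
        ∀ F : Finset X, (F : Set X) = fib σ w y → MvPolynomial.eval (Fin.cons S y) L =
          ∑ p ∈ F, t p / σ p ^ l * ∏ p' ∈ F.erase p, (S - ϑ p' / σ p') :=by
  obtain ⟨N, hN⟩ := G1_card hu h
  obtain ⟨B, hB, hb⟩ := G1_fac hu h hϑ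
  refine ⟨N, fun l t ht => ?_⟩
  obtain ⟨B', hB', hb'⟩ := IntC_bound hu h ht
  obtain ⟨L, h1, h2⟩ := G1_poly (D := D) (C := N * (B' * B ^ N)) (e := l + N)
    (c := fun S y => ∑ p ∈ G1_F σ w y,
      t p / σ p ^ l * ∏ p' ∈ (G1_F σ w y).erase p, (S - ϑ p' / σ p')) (fun x0 hy => by
      obtain ⟨M, ψ, h3, h4⟩ := G1_sheets hu h hy
      have h5 : AnalyticAt ℂ (fun x => ∑ k : Fin M, t (ψ k x) / σ (ψ k x) ^ l *
          ∏ k' ∈ Finset.univ.erase k, (x 0 - ϑ (ψ k' x) / σ (ψ k' x) ^ 1)) x0 :=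
        Finset.analyticAt_fun_sum _ fun k _ => (h4 k ht).mul
          (Finset.analyticAt_fun_prod _ fun k' _ =>
            (G1_head x0).sub (h4 k' (by rwa [pow_one])))
      refine h5.congr ?_
      filter_upwards [h3] with x ⟨hi, hx⟩
      rw [hx, Finset.sum_map]
      refine Finset.sum_congr rfl fun k _ => ?_
      rw [← Finset.map_erase, Finset.prod_map]
      simp) (fun x hy => by
      have h3 := G1_F_coe hu h hy
      have h4 := hN _ hy _ h3
      have h5 : 1 ≤ B * (1 + ‖x‖) := by nlinarith [norm_nonneg x]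
      have h6 : ∀ p ∈ G1_F σ w (Fin.tail x), p ∈ fib σ w (Fin.tail x) := fun p hp => by
        rw [← h3]
        exact hp
      refine (norm_sum_le _ _).trans ((Finset.sum_le_card_nsmul _ _
        (B' * B ^ N * (1 + ‖x‖) ^ (l + N)) fun p hp => ?_).trans ?_)
      · rw [norm_mul]
        have h7 := G1_prod_le (F := (G1_F σ w (Fin.tail x)).erase p)
          (g := fun p' => x 0 - ϑ p' / σ p') h5 (Finset.card_erase_le.trans h4.le)
          fun p' hp' => hb x p' (h6 p' (Finset.mem_of_mem_erase hp'))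
        have h8 : ‖t p / σ p ^ l‖ ≤ B' * (1 + ‖x‖) ^ l := by
          refine (hb' _ p (h6 p hp)).trans ?_
          have := G1_norm_tail x
          gcongr
        calc _ ≤ B' * (1 + ‖x‖) ^ l * (B * (1 + ‖x‖)) ^ N :=
              mul_le_mul h8 h7 (norm_nonneg _) (by positivity)
          _ = _ := by rw [mul_pow, pow_add]; ring
      · rw [h4, nsmul_eq_mul, mul_assoc (N : ℝ)])
  refine ⟨L, h1, fun S y hy F hF => ?_⟩
  rw [h2 S y hy, G1_F_eq hF]

/-- The characteristic polynomial of a section along the fibres. -/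
theorem G1_chi (hu : A.IsGauge u) (h : Proj A u σ w D) {ϑ : X → ℂ} (hϑ : ϑ ∈ A.H0 u) :
    ∃ L : MvPolynomial (Fin (n + 1)) ℂ, ∀ (S : ℂ) (y : Cn n), MvPolynomial.eval y D ≠ 0 →
      ∀ F : Finset X, (F : Set X) = fib σ w y →
        MvPolynomial.eval (Fin.cons S y) L = ∏ p ∈ F, (S - ϑ p / σ p) :=by
  obtain ⟨N, hN⟩ := G1_card hu h
  obtain ⟨B, hB, hb⟩ := G1_fac hu h hϑ
  obtain ⟨L, -, h2⟩ := G1_poly (D := D) (C := B ^ N) (e := N)
    (c := fun S y => ∏ p ∈ G1_F σ w y, (S - ϑ p / σ p)) (fun x0 hy => by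
      obtain ⟨M, ψ, h3, h4⟩ := G1_sheets hu h hy
      have h5 : AnalyticAt ℂ (fun x => ∏ k : Fin M, (x 0 - ϑ (ψ k x) / σ (ψ k x) ^ 1)) x0 :=
        Finset.analyticAt_fun_prod _ fun k _ => (G1_head x0).sub (h4 k (by rwa [pow_one]))
      refine h5.congr ?_
      filter_upwards [h3] with x ⟨hi, hx⟩
      rw [hx, Finset.prod_map]
      simp) (fun x hy => by
      have h3 := G1_F_coe hu h hy
      have h5 : 1 ≤ B * (1 + ‖x‖) := by nlinarith [norm_nonneg x]
      rw [← mul_pow]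
      exact G1_prod_le h5 (hN _ hy _ h3).le fun p hp => hb x p (by rw [← h3]; exact hp))
  refine ⟨L, fun S y hy F hF => ?_⟩
  rw [h2 S y hy, G1_F_eq hF]

end Vale.Agent.P299
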