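import Vale.Agent.P271.FInt

/-! P299, part G: graded modules with a conductor are finitely generated.

Hints. `G2_alg`: `B = rees W` is `Algebra.adjoin ℂ` of the finite set of the `C (s i) * X`, so it is
a Noetherian ring (`Subalgebra.FG`, `isNoetherianRing_of_fg`). The polynomials `g : R[X]` with
`g.coeff l ∈ H l` for all `l` form a `B`-submodule `T` of `R[X]` (`coeff_mem_of_mem_rees`,
`Polynomial.coeff_mul`, `W ^ j * H l ≤ H (l + j)`). Multiplication by `C δ * X ^ e` is `B`-linear,
injective on `T` and maps `T` into `(1 : Submodule B R[X])` (`C_mul_X_pow_mem_rees`,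
`Polynomial.as_sum_range`), which is Noetherian; so `T` is finitely generated
(`Submodule.fg_of_fg_map_injective` or `isNoetherian_of_injective`). Let `l1` bound the degrees of
the generators. By span induction every `g ∈ T` has `g.coeff (l + 1) ∈ W * H l` for `l ≥ l1`
(prove for `g` in the span: for all `l ≥ l1`; in the step `b • g` the term `b.coeff 0 * g.coeff
(l + 1)` is a complex multiple, the others lie in `W ^ (j + 1) * H k`). Apply to `C t * X ^ (l+1)`.
`G2_form`: the product over `p ∈ F` of the linear forms is a nonzero `MvPolynomial`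
(`MvPolynomial.funext`), or use `Subspace.biUnion_ne_univ_of_top_notMem`. -/

open Set

noncomputable section

namespace Vale.Agent.P299

open Vale.Agent.P271

section
open Polynomial
variable {R : Type} [CommRing R] [Algebra ℂ R]

theorem G2_noeth {ι : Type} [Finite ι] (s : ι → R) :
    IsNoetherianRing (rees (Submodule.span ℂ (range s))) := by
  have e : rees (Submodule.span ℂ (range s)) =
      Algebra.adjoin ℂ (range fun i => (C (s i) * X : R[X])) := by
    refine le_antisymm (Algebra.adjoin_le ?_) (Algebra.adjoin_mono ?_)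
    · rintro _ ⟨v, hv, rfl⟩
      induction hv using Submodule.span_induction with
      | mem x hx =>
        obtain ⟨i, rfl⟩ := hx
        exact Algebra.subset_adjoin ⟨i, rfl⟩
      | zero => simp
      | add x y _ _ hx hy =>
        rw [map_add, add_mul]
        exact add_mem hx hy
      | smul c x _ hx =>
        rw [← smul_C, smul_mul_assoc]
        exact Subalgebra.smul_mem _ hx c
    · rintro _ ⟨i, rfl⟩
      exact ⟨s i, Submodule.subset_span ⟨i, rfl⟩, rfl⟩
  rw [e]
  exact isNoetherianRing_of_fg (Subalgebra.fg_def.2 ⟨_, finite_range _, rfl⟩)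

/-- The part generated in degrees at most `m`. -/
def G2K (W : Submodule ℂ R) (H : ℕ → Submodule ℂ R) (m : ℕ) : ℕ → Submodule ℂ R
  | 0 => H 0
  | l + 1 => if l < m then H (l + 1) else W * G2K W H m l

variable {W : Submodule ℂ R} {H : ℕ → Submodule ℂ R}

theorem G2K_le (hH : ∀ l, W * H l ≤ H (l + 1)) (m l : ℕ) : G2K W H m l ≤ H l := by
  induction l with
  | zero => exact le_rfl
  | succ l ih =>
    rw [G2K]
    split_ifs
    · exact le_rfl
    · exact (mul_le_mul_right ih W).trans (hH l)

theorem G2K_mul (hH : ∀ l, W * H l ≤ H (l + 1)) (m l j : ℕ) :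
    W ^ j * G2K W H m l ≤ G2K W H m (l + j) := by
  induction j with
  | zero => rw [pow_zero, one_mul, add_zero]
  | succ j ih =>
    rw [_root_.pow_succ', mul_assoc, ← add_assoc, G2K]
    refine (mul_le_mul_right ih W).trans ?_
    split_ifs
    · exact (mul_le_mul_right (G2K_le hH m _) W).trans (hH _)
    · exact le_rfl

theorem G2K_mono (hH : ∀ l, W * H l ≤ H (l + 1)) (m l : ℕ) :
    G2K W H m l ≤ G2K W H (m + 1) l := by
  induction l with
  | zero => exact le_rfl
  | succ l ih =>
    rw [G2K, G2K]
    split_ifs with h1 h2 h2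
    · exact le_rfl
    · omega
    · exact (mul_le_mul_right (G2K_le hH m _) W).trans (hH _)
    · exact mul_le_mul_right ih W

/-- The graded module. -/
def G2T (hH : ∀ l, W * H l ≤ H (l + 1)) (m : ℕ) : Submodule (rees W) R[X] where
  carrier := {g | ∀ l, g.coeff l ∈ G2K W H m l}
  add_mem' ha hb l := by
    rw [coeff_add]
    exact add_mem (ha l) (hb l)
  zero_mem' l := by simp
  smul_mem' b g hg l := by
    rw [Subalgebra.smul_def, smul_eq_mul, coeff_mul]
    refine Submodule.sum_mem _ fun p hp => ?_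
    rw [← Finset.HasAntidiagonal.mem_antidiagonal.1 hp, add_comm]
    exact G2K_mul hH m _ _ (Submodule.mul_mem_mul (coeff_mem_of_mem_rees b.2 _) (hg _))

end

open Polynomial in
theorem G2_alg {R ι : Type} [CommRing R] [Algebra ℂ R] [Finite ι] (s : ι → R)
    (H : ℕ → Submodule ℂ R) (hH : ∀ l, Submodule.span ℂ (range s) * H l ≤ H (l + 1)) {δ : R}
    {e : ℕ} (h1 : ∀ l, ∀ t ∈ H l, δ * t ∈ Submodule.span ℂ (range s) ^ (l + e))
    (h2 : ∀ l, ∀ t ∈ H l, δ * t = 0 → t = 0) :
    ∃ l1, ∀ l, l1 ≤ l → H (l + 1) ≤ Submodule.span ℂ (range s) * H l := by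
  have hN := G2_noeth s
  generalize Submodule.span ℂ (range s) = W at *
  obtain ⟨l1, hl⟩ := monotone_stabilizes_iff_noetherian.2 hN
    ⟨fun m => ((G2T hH m).map (LinearMap.mulLeft (rees W) (C δ * X ^ e))).comap
      (Algebra.linearMap (rees W) R[X]), monotone_nat_of_le_succ fun m =>
        Submodule.comap_mono (Submodule.map_mono fun g hg l => G2K_mono hH m l (hg l))⟩
  refine ⟨l1, fun l hl1 t ht => ?_⟩
  have h3 := (hl (l + 1) (by omega)).symm.trans (hl l hl1)
  obtain ⟨g, hg, h4⟩ : (⟨_, C_mul_X_pow_mem_rees (h1 _ t ht)⟩ : rees W) ∈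
      ((G2T hH l).map (LinearMap.mulLeft (rees W) (C δ * X ^ e))).comap
        (Algebra.linearMap (rees W) R[X]) := by
    refine h3.le ⟨C t * X ^ (l + 1), fun k => ?_, ?_⟩
    · rw [coeff_C_mul_X_pow]
      split_ifs with hk
      · rw [hk, G2K, if_pos (Nat.lt_succ_self l)]
        exact ht
      · exact zero_mem _
    · change C δ * X ^ e * (C t * X ^ (l + 1)) = C (δ * t) * X ^ (l + 1 + e)
      rw [map_mul]
      ring
  have h5 : δ * g.coeff (l + 1) = δ * t := by
    have h6 : C δ * g * X ^ e = C (δ * t) * X ^ (l + 1 + e) := by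
      rw [mul_right_comm]
      exact h4
    have h7 := congrArg (fun p : R[X] => p.coeff (l + 1 + e)) h6
    simpa only [coeff_mul_X_pow, coeff_C_mul, coeff_X_pow_self, mul_one] using h7
  have h8 := hg (l + 1)
  have h9 := h2 (l + 1) _ (sub_mem (G2K_le hH l _ h8) ht) (by rw [mul_sub, h5, sub_self])
  rw [sub_eq_zero.1 h9, G2K, if_neg (lt_irrefl l)] at h8
  exact mul_le_mul_right (G2K_le hH l l) W h8

/-- A linear form that does not vanish on finitely many nonzero vectors. -/
theorem G2_form {κ ι : Type} [Fintype ι] (F : Finset κ) (d : κ → ι → ℂ) (h : ∀ p ∈ F, d p ≠ 0) :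
    ∃ a : ι → ℂ, ∀ p ∈ F, ∑ i, a i * d p i ≠ 0 := by
  classical
  obtain ⟨f, hf⟩ := Module.exists_dual_forall_apply_ne_zero (K := ℂ) (fun p : F => d p)
    fun p => h p p.2
  refine ⟨fun i => f fun j => if i = j then 1 else 0, fun p hp => ?_⟩
  have := hf ⟨p, hp⟩
  rw [LinearMap.pi_apply_eq_sum_univ] at this
  simpa only [smul_eq_mul, mul_comm] using this

end Vale.Agent.P299
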