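import Vale.Agent.P299.G1
import Vale.Agent.P299.G2

/-! P299, part G: normal generation.

Hints. `G3_cond`: take `exists_proj`, the point `p0` of `Proj.ne`, `y0 = w p0 / σ p0`, the finite
fibre `F` (`IntC_finite`, `IntC_mem`, `IntC_ne`). For `p ∈ F.erase p0` the vector
`i ↦ s i p0 / σ p0 - s i p / σ p` is nonzero by `sep`; `G2_form` gives `a`, `ϑ = ∑ a i • s i`. For
`t ∈ H0 (u ^ l)` let `E t ∈ W ^ (l + N)` be `exists_homogenize` of the polynomial of `G1_lag` for the
family `Fin.cons ϑ w`. On the open set `σ ≠ 0, D (w / σ) ≠ 0` only the term of the point itself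
survives in the Lagrange sum (`Finset.sum_eq_single`, `Finset.prod_eq_zero`), so
`E t = E 1 * t` there with `δ = E 1` (`l = 0`); conclude as in `fInt_of_imm`
(`Atl.eq_zero_of_eventually`, `intA_pow_le`). `G3_const`: `fInt_of_imm` with `j = 0`: the values of
the continuous function `t` are roots of a monic polynomial, a finite set, and `X` is connected
(`IsPreconnected.constant_of_mapsTo` or `Set.Finite.isDiscrete`). `G3_gen`: `G2_alg` with
`Atl.mul_le_H0_pow`, `Atl.eq_zero_or_eq_zero`. -/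

open Set Filter Topology

noncomputable section

namespace Vale.Agent.P299

open Vale.Agent.P271

variable {n : ℕ} {X : Type} [TopologicalSpace X] [T2Space X] [CompactSpace X] [ConnectedSpace X]
  {A : Atl n X} {u : A.ι → X → ℂ} {ι : Type} [Fintype ι] {s : ι → X → ℂ}

omit [ConnectedSpace X] in
open Classical in
theorem G3_lag {σ ϑ : X → ℂ} {w : Fin n → X → ℂ} {D : MvPolynomial (Fin n) ℂ}
    {W : Submodule ℂ (X → ℂ)} (hu : A.IsGauge u) (hp : Proj A u σ w D) (hle : W ≤ A.H0 u)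
    (hσ : σ ∈ W) (hw : ∀ l, w l ∈ W) (hϑ : ϑ ∈ W) :
    ∃ N : ℕ, ∀ l, ∀ t ∈ A.H0 (u ^ l), ∃ E ∈ W ^ (l + N), ∀ q, σ q ≠ 0 →
      MvPolynomial.eval (fun l => w l q / σ q) D ≠ 0 → ∀ F : Finset X,
        (F : Set X) = fib σ w (fun l => w l q / σ q) →
          E q = σ q ^ N * (∏ p ∈ F.erase q, (ϑ q / σ q - ϑ p / σ p)) * t q := by
  obtain ⟨N, hN⟩ := G1_lag hu hp (hle hϑ)
  refine ⟨N, fun l t ht => ?_⟩
  obtain ⟨L, h1, h2⟩ := hN l t ht
  obtain ⟨E, h3, h4⟩ := exists_homogenize (s := (Fin.cons ϑ w : Fin (n + 1) → X → ℂ)) hσ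
    (fun i => Fin.cases hϑ hw i) h1
  refine ⟨E, h3, fun q h5 h6 F hF => ?_⟩
  have e : (fun i => (Fin.cons ϑ w : Fin (n + 1) → X → ℂ) i q / σ q) =
      Fin.cons (ϑ q / σ q) fun l => w l q / σ q :=
    funext fun i => Fin.cases rfl (fun _ => rfl) i
  have hq : q ∈ F := by
    rw [← Finset.mem_coe, hF]
    exact (IntC_mem h5).2 rfl
  rw [h4 q h5, e, h2 _ _ h6 F hF, Finset.sum_eq_single q (fun p _ hne => by
    rw [Finset.prod_eq_zero (Finset.mem_erase.2 ⟨hne.symm, hq⟩) (sub_self _), mul_zero])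
    fun h => (h hq).elim, pow_add]
  field_simp

theorem G3_cond (hu : A.IsGauge u) (hs : A.Imm u s)
    (sep : ∀ p q, p ≠ q → ∃ i j, s i p * s j q ≠ s j p * s i q) :
    ∃ e, ∃ δ ∈ A.H0 (u ^ e), δ ≠ 0 ∧ ∀ l, ∀ t ∈ A.H0 (u ^ l),
      δ * t ∈ Submodule.span ℂ (range s) ^ (l + e) := by
  classical
  obtain ⟨σ, w, D, hσ, hw, hp⟩ := exists_proj hu hs
  have hle : Submodule.span ℂ (range s) ≤ A.H0 u :=
    Submodule.span_le.2 (range_subset_iff.2 hs.mem)
  obtain ⟨p0, h1, h2⟩ := hp.ne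
  have hfin := IntC_finite hu hp h2
  obtain ⟨a, ha⟩ := G2_form (hfin.toFinset.erase p0) (fun p i => s i p0 / σ p0 - s i p / σ p)
    fun p hp' h0 => by
      obtain ⟨h3, h4⟩ := Finset.mem_erase.1 hp'
      have h5 := IntC_ne hp (hfin.mem_toFinset.1 h4)
      obtain ⟨i, j, h6⟩ := sep p0 p h3.symm
      have e : ∀ k, s k p0 * σ p = s k p * σ p0 := fun k =>
        (div_eq_div_iff h1 h5).1 (sub_eq_zero.1 (congrFun h0 k))
      exact h6 (mul_right_cancel₀ h1 (by linear_combination (-s i p0) * e j + s j p0 * e i))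
  have hϑ : ∑ i, a i • s i ∈ Submodule.span ℂ (range s) := Submodule.sum_mem _ fun i _ =>
    Submodule.smul_mem _ _ (Submodule.subset_span (mem_range_self i))
  obtain ⟨N, hN⟩ := G3_lag hu hp hle hσ hw hϑ
  obtain ⟨δ, h3, h4⟩ := hN 0 1 (by rw [pow_zero]; exact Atl.one_mem_H0)
  rw [zero_add] at h3
  refine ⟨N, δ, intA_pow_le hle _ h3, fun h0 => ?_, fun l t ht => ?_⟩
  · have h5 := h4 p0 h1 h2 hfin.toFinset hfin.coe_toFinset
    rw [h0, Pi.one_apply, mul_one] at h5
    refine mul_ne_zero (pow_ne_zero N h1) (Finset.prod_ne_zero_iff.2 fun p hp' h6 => ?_) h5.symm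
    refine ha p hp' (Eq.trans ?_ h6)
    simp only [Finset.sum_apply, Pi.smul_apply, smul_eq_mul, Finset.sum_div, mul_sub,
      Finset.sum_sub_distrib, mul_div_assoc]
  · obtain ⟨E, h5, h6⟩ := hN l t ht
    have h7 : δ * t ∈ A.H0 (u ^ (l + N)) := by
      rw [add_comm]
      exact Atl.mul_mem_H0_pow (intA_pow_le hle _ h3) ht
    have h8 : ContinuousAt (fun p => MvPolynomial.eval (fun l => w l p / σ p) D) p0 :=
      (MvPolynomial.continuous_eval D).continuousAt.comp
        (continuousAt_pi.2 fun l => Atl.continuousAt_div hu (hp.w_mem l) hp.σ_mem h1)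
    have h9 := Atl.eq_zero_of_eventually (hu.pow _)
      (Submodule.sub_mem _ h7 (intA_pow_le hle _ h5)) (p := p0) (by
        filter_upwards [(Atl.isOpen_ne_zero hu (Atl.H0_le_Sec hp.σ_mem)).mem_nhds h1,
          h8.eventually_ne h2] with q h10 h11
        have hf := IntC_finite hu hp h11
        rw [Pi.sub_apply, Pi.mul_apply, h4 q h10 h11 _ hf.coe_toFinset,
          h6 q h10 h11 _ hf.coe_toFinset, Pi.one_apply, mul_one, sub_self])
    rwa [sub_eq_zero.1 h9]

theorem G3_const (hu : A.IsGauge u) (hs : A.Imm u s) :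
    A.H0 (u ^ 0) ≤ (1 : Submodule ℂ (X → ℂ)) := by
  intro t ht
  obtain ⟨N, a, -, ha, h0⟩ := fInt_of_imm hu hs ht
  have hb : ∀ i, ∃ b : ℂ, algebraMap ℂ (X → ℂ) b = a i := fun i =>
    Submodule.mem_one.1 (by simpa only [mul_zero, pow_zero] using ha i)
  choose b hb using hb
  have hm : (Polynomial.X ^ N + ∑ k ∈ Finset.range N,
      Polynomial.C (b (k + 1)) * Polynomial.X ^ (N - (k + 1)) : Polynomial ℂ).Monic := by
    refine Polynomial.monic_X_pow_add ((Polynomial.degree_sum_le _ _).trans_lt ?_)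
    refine (Finset.sup_lt_iff (WithBot.bot_lt_coe N)).2 fun k hk => ?_
    refine (Polynomial.degree_C_mul_X_pow_le _ _).trans_lt ?_
    have := Finset.mem_range.1 hk
    exact WithBot.coe_lt_coe.2 (by omega : N - (k + 1) < N)
  have hc : Continuous t := continuous_iff_continuousAt.2 fun p => by
    have h1 := Atl.continuousAt_div (hu.pow 0) ht (t := 1)
      (by rw [pow_zero]; exact Atl.one_mem_H0) (p := p) one_ne_zero
    simpa only [Pi.one_apply, div_one] using h1
  obtain ⟨p0⟩ : Nonempty X := inferInstance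
  refine Submodule.mem_one.2 ⟨t p0, funext fun p => ?_⟩
  refine isPreconnected_univ.constant_of_mapsTo (Polynomial.finite_setOfPred_isRoot hm.ne_zero).isDiscrete
    hc.continuousOn (fun q _ => ?_) (mem_univ p0) (mem_univ p)
  have h1 := congrFun h0 q
  simp only [← hb, Pi.add_apply, Pi.pow_apply, Finset.sum_apply, Pi.mul_apply, Pi.algebraMap_apply,
    Algebra.algebraMap_self, RingHom.id_apply, Pi.zero_apply] at h1
  simpa only [mem_ofPred_eq, Polynomial.IsRoot.def, Polynomial.eval_add, Polynomial.eval_pow,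
    Polynomial.eval_X, Polynomial.eval_finsetSum, Polynomial.eval_mul, Polynomial.eval_C] using h1

theorem G3_gen (hu : A.IsGauge u) (hs : A.Imm u s)
    (sep : ∀ p q, p ≠ q → ∃ i j, s i p * s j q ≠ s j p * s i q) :
    ∃ l1, ∀ l, l1 ≤ l →
      A.H0 (u ^ (l + 1)) ≤ Submodule.span ℂ (range s) * A.H0 (u ^ l) := by
  obtain ⟨e, δ, h1, h2, h3⟩ := G3_cond hu hs sep
  have hle : Submodule.span ℂ (range s) ≤ A.H0 (u ^ 1) := by
    rw [pow_one]
    exact Submodule.span_le.2 (range_subset_iff.2 hs.mem)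
  refine G2_alg s (fun l => A.H0 (u ^ l)) (fun l => ?_) h3 fun l t ht h0 =>
    (Atl.eq_zero_or_eq_zero (hu.pow e) (hu.pow l) h1 ht h0).resolve_left h2
  rw [add_comm]
  exact Atl.mul_le_H0_pow hle le_rfl

end Vale.Agent.P299
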