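import Mathlib

/-! P299, part K: the dual of `L¹`. -/

open MeasureTheory Set Filter Topology
open scoped ENNReal InnerProductSpace

noncomputable section

namespace Vale.Agent.P299

variable {Z : Type} [MeasurableSpace Z] {ν : Measure Z} [SigmaFinite ν]

theorem KR_rep (g : Lp ℝ 1 ν →L[ℝ] ℝ) {C : ℝ} (hC : ‖g‖ ≤ C) :
    ∃ u : Z → ℝ, AEStronglyMeasurable u ν ∧ (∀ᵐ z ∂ν, |u z| ≤ C) ∧
      ∀ f (hf : Integrable f ν), Measurable f → g (hf.toL1 f) = ∫ z, f z * u z ∂ν := by
  obtain ⟨θ, h0, hm, hi⟩ := exists_pos_lintegral_lt_of_sigmaFinite ν one_ne_zero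
  have hm' : Measurable fun z => (θ z : ℝ) := hm.coe_nnreal_real
  have hθ : Integrable (fun z => (θ z : ℝ)) ν := ⟨hm'.aestronglyMeasurable, by
    rw [hasFiniteIntegral_iff_ofNNReal]
    exact hi.trans ENNReal.one_lt_top⟩
  set s : Z → ℝ := fun z => √(θ z) with hsd
  have s0 : ∀ z, 0 < s z := fun z => Real.sqrt_pos.2 (h0 z)
  have s2 : ∀ z, s z * s z = θ z := fun z => Real.mul_self_sqrt (θ z).2
  have sm : Measurable s := hm'.sqrt
  have hs : MemLp s 2 ν := (memLp_two_iff_integrable_sq sm.aestronglyMeasurable).2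
    (by simpa only [sq, s2] using hθ)
  set S := (ContinuousLinearMap.mul ℝ ℝ).holderL ν 2 2 1 (hs.toLp s)
  set v := (InnerProductSpace.toDual ℝ (Lp ℝ 2 ν)).symm (g.comp S)
  have gb : ∀ f (hf : Integrable f ν), |g (hf.toL1 f)| ≤ C * ∫ z, |f z| ∂ν := fun f hf => by
    refine (g.le_opNorm _).trans ?_
    rw [L1.norm_of_fun_eq_integral_norm]
    exact mul_le_mul_of_nonneg_right hC (integral_nonneg fun z => norm_nonneg _)
  have key : ∀ f (hf : Integrable f ν), MemLp (fun z => f z / s z) 2 ν →
      g (hf.toL1 f) = ∫ z, f z * (v z / s z) ∂ν := fun f hf h2 => by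
    have e : hf.toL1 f = S (h2.toLp _) := Lp.ext (by
      filter_upwards [hf.coeFn_toL1, (ContinuousLinearMap.mul ℝ ℝ).coeFn_holder (r := 1)
        (hs.toLp s) (h2.toLp _), hs.coeFn_toLp, h2.coeFn_toLp] with z h3 h4 h5 h6
      rw [h3]
      refine Eq.trans ?_ h4.symm
      rw [h5, h6, ContinuousLinearMap.mul_apply', mul_div_cancel₀ _ (s0 z).ne'])
    rw [e, ← ContinuousLinearMap.comp_apply, ← InnerProductSpace.toDual_symm_apply, L2.inner_def]
    refine integral_congr_ae ?_
    filter_upwards [h2.coeFn_toLp] with z hz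
    rw [hz, real_inner_eq_re_inner ℝ, RCLike.inner_apply]
    simp only [conj_trivial, RCLike.re_to_real]
    ring
  have um : AEStronglyMeasurable (fun z => v z / s z) ν :=
    ((Lp.memLp v).1.aemeasurable.div sm.aemeasurable).aestronglyMeasurable
  have hu : Integrable (fun z => θ z * (v z / s z)) ν :=
    (hs.integrable_mul (Lp.memLp v)).congr (Eventually.of_forall fun z => by
      beta_reduce
      rw [Pi.mul_apply, ← s2, mul_assoc, mul_div_cancel₀ _ (s0 z).ne'])
  have hA : ∀ A, MeasurableSet A →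
      |∫ z in A, θ z * (v z / s z) ∂ν| ≤ ∫ z in A, C * θ z ∂ν := fun A hA => by
    have h1 := gb _ (hθ.indicator hA)
    rw [key _ _ ((hs.indicator hA).ae_eq (Eventually.of_forall fun z => by
      by_cases hz : z ∈ A
      · simp only [indicator_of_mem hz]
        rw [← s2, mul_div_cancel_right₀ _ (s0 z).ne']
      · simp [hz]))] at h1
    simp only [← Real.norm_eq_abs, norm_indicator_eq_indicator_norm,
      integral_indicator hA, NNReal.norm_eq] at h1
    rw [integral_const_mul, ← integral_indicator hA]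
    simpa only [indicator_mul_left, Real.norm_eq_abs] using h1
  have hb : ∀ᵐ z ∂ν, |v z / s z| ≤ C := by
    filter_upwards [ae_nonneg_of_forall_setIntegral_nonneg ((hθ.const_mul C).sub hu)
      fun A h _ => by
        simp only [Pi.sub_apply]
        rw [integral_sub (hθ.const_mul C).integrableOn hu.integrableOn]
        linarith [abs_le.1 (hA A h)],
      ae_nonneg_of_forall_setIntegral_nonneg ((hθ.const_mul C).add hu) fun A h _ => by
        simp only [Pi.add_apply]
        rw [integral_add (hθ.const_mul C).integrableOn hu.integrableOn]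
        linarith [abs_le.1 (hA A h)]] with z h1 h2
    have h3 : (0 : ℝ) < θ z := h0 z
    simp only [Pi.sub_apply, Pi.add_apply, Pi.zero_apply] at h1 h2
    rw [abs_le]
    constructor <;> nlinarith
  refine ⟨_, um, hb, fun f hf fm => ?_⟩
  set A : ℕ → Set Z := fun k => {z | |f z| ≤ k * θ z}
  have Am : ∀ k, MeasurableSet (A k) := fun k => measurableSet_le fm.abs (hm'.const_mul _)
  have Al : ∀ z, Tendsto (fun k => (A k).indicator f z) atTop (𝓝 (f z)) := fun z => by
    have h3 : (0 : ℝ) < θ z := h0 z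
    refine tendsto_const_nhds.congr' ?_
    filter_upwards [(tendsto_natCast_atTop_atTop.atTop_mul_const h3).eventually_ge_atTop |f z|]
      with k hk
    exact (indicator_of_mem (show z ∈ A k from hk) f).symm
  have Ab : ∀ k z, ‖(A k).indicator f z‖ ≤ ‖f z‖ := fun k z => norm_indicator_le_norm_self f z
  have t1 := tendsto_integral_of_dominated_convergence
    (F := fun k z => (A k).indicator f z * (v z / s z)) (fun z => ‖f z‖ * C)
    (fun k => (hf.indicator (Am k)).1.mul um) (hf.norm.mul_const C)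
    (fun k => hb.mono fun z hz => by
      rw [norm_mul]
      exact mul_le_mul (Ab k z) hz (norm_nonneg _) (norm_nonneg _))
    (Eventually.of_forall fun z => (Al z).mul_const _)
  have t2 := tendsto_integral_of_dominated_convergence
    (F := fun k z => |((A k).indicator f - f) z|) (f := fun _ => 0) (fun z => ‖f z‖ + ‖f z‖)
    (fun k => ((hf.indicator (Am k)).sub hf).abs.1) (hf.norm.add hf.norm)
    (fun k => Eventually.of_forall fun z => by
      rw [Real.norm_eq_abs, abs_abs]
      exact (norm_sub_le _ _).trans (add_le_add (Ab k z) le_rfl))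
    (Eventually.of_forall fun z => by simpa using ((Al z).sub_const (f z)).abs)
  refine tendsto_nhds_unique (tendsto_iff_dist_tendsto_zero.2 (squeeze_zero
    (fun _ => dist_nonneg) (fun k => ?_) (by simpa using t2.const_mul C))) t1
  rw [← key _ (hf.indicator (Am k)) (hs.of_le_mul (c := k)
    ((fm.indicator (Am k)).div sm).aestronglyMeasurable (Eventually.of_forall fun z => ?_)),
    Real.dist_eq, ← map_sub, ← Integrable.toL1_sub]
  · exact gb _ _
  · by_cases hz : z ∈ A k
    · rw [indicator_of_mem hz, norm_div, Real.norm_of_nonneg (s0 z).le, div_le_iff₀ (s0 z),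
        mul_assoc, s2]
      exact hz
    · rw [indicator_of_notMem hz, zero_div, norm_zero]
      positivity

/-- A functional dominated in `L¹` by an operator is given by a bounded function. -/
theorem KR_dual {E : Type} [AddCommGroup E] [Module ℝ E] (T : E →ₗ[ℝ] (Z → ℝ))
    (hT : ∀ v, Integrable (T v) ν) (hm : ∀ v, Measurable (T v)) (Λ : E →ₗ[ℝ] ℝ) {C : ℝ}
    (hC : 0 ≤ C) (h : ∀ v, |Λ v| ≤ C * ∫ z, |T v z| ∂ν) :
    ∃ u : Z → ℝ, AEStronglyMeasurable u ν ∧ (∀ᵐ z ∂ν, |u z| ≤ C) ∧
      ∀ v, Λ v = ∫ z, T v z * u z ∂ν := by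
  let T' : E →ₗ[ℝ] Lp ℝ 1 ν :=
    { toFun := fun v => (hT v).toL1 (T v)
      map_add' := fun v w => by
        rw [← Integrable.toL1_add]
        exact (Integrable.toL1_eq_toL1_iff _ _ _ _).2 (by rw [map_add])
      map_smul' := fun c v => by
        rw [RingHom.id_apply, ← Integrable.toL1_smul']
        exact (Integrable.toL1_eq_toL1_iff _ _ _ _).2 (by rw [map_smul]) }
  have hb : ∀ v, ‖Λ v‖ ≤ C * ‖T' v‖ := fun v =>
    (h v).trans_eq (congrArg _ (L1.norm_of_fun_eq_integral_norm (hT v)).symm)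
  have hker : LinearMap.ker T' ≤ LinearMap.ker Λ := fun v hv => by
    have h1 := hb v
    rw [LinearMap.mem_ker.1 hv, norm_zero, mul_zero] at h1
    exact LinearMap.mem_ker.2 (norm_le_zero_iff.1 h1)
  let f : LinearMap.range T' →ₗ[ℝ] ℝ :=
    ((LinearMap.ker T').liftQ Λ hker).comp T'.quotKerEquivRange.symm.toLinearMap
  have hf : ∀ v, f ⟨T' v, LinearMap.mem_range_self T' v⟩ = Λ v := fun v => by
    have h1 := LinearMap.quotKerEquivRange_symm_apply_image T' v (LinearMap.mem_range_self T' v)
    change (LinearMap.ker T').liftQ Λ hker (T'.quotKerEquivRange.symm _) = _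
    rw [h1, Submodule.mkQ_apply, Submodule.liftQ_apply]
  have hfb : ∀ x : LinearMap.range T', ‖f x‖ ≤ C * ‖x‖ := by
    rintro ⟨_, v, rfl⟩
    rw [hf]
    exact hb v
  obtain ⟨g, hg, hgn⟩ := exists_extension_norm_eq (LinearMap.range T') (f.mkContinuous _ hfb)
  obtain ⟨u, h1, h2, h3⟩ := KR_rep g (hgn.le.trans (f.mkContinuous_norm_le hC hfb))
  refine ⟨u, h1, h2, fun v => ?_⟩
  rw [← h3 _ (hT v) (hm v), ← hf]
  exact (hg ⟨T' v, LinearMap.mem_range_self T' v⟩).symm

end Vale.Agent.P299
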