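import Vale.Agent.P292E.Ell
import Vale.Agent.P292E.Reg

/-! P299: scalar elliptic regularity without coordinates. -/

open MeasureTheory Set Filter Topology Complex
open scoped ContDiff

noncomputable section

namespace Vale.Agent.P299.MR

open Vale.Agent.P292E

variable {F : Type} [NormedAddCommGroup F] [NormedSpace ℝ F]

/-- The derivative along a constant complex vector. -/
def cX (ξ : F × F) (φ : F → ℂ) (x : F) : ℂ := fderiv ℝ φ x ξ.1 + I * fderiv ℝ φ x ξ.2

/-- A real covector on a complex vector. -/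
def lc (ℓ : F →L[ℝ] ℝ) (ξ : F × F) : ℂ := ℓ ξ.1 + I * ℓ ξ.2

theorem cX_sm {φ : F → ℂ} (h : ContDiff ℝ ∞ φ) (ξ : F × F) : ContDiff ℝ ∞ (cX ξ φ) :=
  ((h.fderiv_right (m := ∞) le_rfl).clm_apply contDiff_const).add
    (contDiff_const.mul ((h.fderiv_right (m := ∞) le_rfl).clm_apply contDiff_const))

theorem cX_comp {G : Type} [NormedAddCommGroup G] [NormedSpace ℝ G] {φ : G → ℂ}
    (h : ContDiff ℝ ∞ φ) (e : F →L[ℝ] G) (c : G) (ξ : F × F) :
    cX ξ (fun x => φ (e x + c)) = fun x => cX (e ξ.1, e ξ.2) φ (e x + c) := by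
  funext x
  have h1 : fderiv ℝ (fun x => φ (e x + c)) x = (fderiv ℝ φ (e x + c)).comp e :=
    ((h.differentiable (by simp) _).hasFDerivAt.comp x (e.hasFDerivAt.add_const c)).fderiv
  simp only [cX, h1, ContinuousLinearMap.comp_apply]

variable {N : ℕ}

theorem cX_pd (ξ : V N × V N) (φ : V N → ℂ) (x : V N) :
    cX ξ φ x = ∑ p, (ξ.1 p + I * ξ.2 p) * pd p φ x := by
  have h : ∀ w : V N, fderiv ℝ φ x w = ∑ p, (w p : ℝ) * pd p φ x := fun w => by
    conv_lhs => rw [← (EuclideanSpace.basisFun (Fin N) ℝ).sum_repr w, map_sum]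
    refine Finset.sum_congr rfl fun p _ => ?_
    rw [map_smul, real_smul, EuclideanSpace.basisFun_repr, EuclideanSpace.basisFun_apply]
    rfl
  simp only [cX, h, add_mul, Finset.sum_add_distrib, Finset.mul_sum, mul_assoc]

theorem cX_cX (ξ ζ : V N × V N) {φ : V N → ℂ} (h : ContDiff ℝ ∞ φ) (x : V N) :
    cX ξ (cX ζ φ) x = ∑ p, ∑ q, (ξ.1 p + I * ξ.2 p) * (ζ.1 q + I * ζ.2 q) * pd p (pd q φ) x := by
  rw [cX_pd, funext (cX_pd ζ φ)]
  refine Finset.sum_congr rfl fun p _ => ?_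
  have h1 : ∀ q, HasFDerivAt (pd q φ) (fderiv ℝ (pd q φ) x) x := fun q =>
    ((((h.fderiv_right (m := ∞) le_rfl).clm_apply contDiff_const).differentiable (by simp))
      x).hasFDerivAt
  rw [pd, (HasFDerivAt.fun_sum fun q _ => (h1 q).const_mul _).fderiv]
  simp [Finset.mul_sum, mul_assoc, pd]

theorem symb_open {A : Fin N → Fin N → V N → ℂ} (hA : ∀ p q, Continuous (A p q)) {x₀ : V N}
    (h : ∀ ξ, ξ ≠ 0 → 0 < symb (fun p q => A p q x₀) ξ) :
    ∀ᶠ x in 𝓝 x₀, ∃ κ : ℝ, 0 < κ ∧ ∀ ξ, κ * ‖ξ‖ ^ 2 ≤ symb (fun p q => A p q x) ξ := by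
  obtain ⟨κ, hκ, h1⟩ := (isCompact_sphere (0 : V N) 1).exists_forall_le'
    (f := symb fun p q => A p q x₀) (by unfold symb; fun_prop) fun ξ hξ => h ξ
      (ne_zero_of_mem_unit_sphere ⟨ξ, hξ⟩)
  have h2 : Continuous fun x => ∑ p, ∑ q, ‖A p q x₀ - A p q x‖ := by fun_prop
  filter_upwards [h2.continuousAt.eventually_lt (x₀ := x₀) (g := fun _ => κ) continuousAt_const
    (by simpa using hκ)]
    with x hx
  refine ⟨_, sub_pos.2 hx, fun ξ => ?_⟩
  have h3 : κ * ‖ξ‖ ^ 2 ≤ symb (fun p q => A p q x₀) ξ := by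
    rcases eq_or_ne ξ 0 with rfl | h0
    · simp [symb]
    have h4 := norm_pos_iff.2 h0
    have h5 := mul_le_mul_of_nonneg_right (h1 (‖ξ‖⁻¹ • ξ) (by simp [norm_smul, h0])) (sq_nonneg ‖ξ‖)
    refine h5.trans_eq ?_
    have h6 : (‖ξ‖ : ℂ) ≠ 0 := ofReal_ne_zero.2 h4.ne'
    rw [symb, symb, ← re_mul_ofReal, Finset.sum_mul]
    refine congrArg re (Finset.sum_congr rfl fun p _ => ?_)
    rw [Finset.sum_mul]
    refine Finset.sum_congr rfl fun q _ => ?_
    simp only [PiLp.smul_apply, smul_eq_mul, ofReal_mul, ofReal_inv, ofReal_pow]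
    field_simp
  have h4 : symb (fun p q => A p q x₀) ξ - symb (fun p q => A p q x) ξ ≤
      (∑ p, ∑ q, ‖A p q x₀ - A p q x‖) * ‖ξ‖ ^ 2 := by
    rw [symb, symb, ← sub_re, ← Finset.sum_sub_distrib, Finset.sum_mul]
    refine (re_le_norm _).trans ((norm_sum_le _ _).trans (Finset.sum_le_sum fun p _ => ?_))
    rw [← Finset.sum_sub_distrib, Finset.sum_mul]
    refine (norm_sum_le _ _).trans (Finset.sum_le_sum fun q _ => ?_)
    rw [← sub_mul, ← sub_mul, norm_mul, norm_mul, norm_real, norm_real, mul_assoc, sq]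
    gcongr <;> exact PiLp.norm_apply_le ξ _
  linarith

variable [FiniteDimensional ℝ F] [MeasurableSpace F] [BorelSpace F]

theorem regF (μ : Measure F) [μ.IsAddHaarMeasure] {ι : Type} [Fintype ι] (v w : ι → F × F)
    {a b : ι → F → ℂ} {c u f : F → ℂ} (ha : ∀ i, ContDiff ℝ ∞ (a i))
    (hb : ∀ i, ContDiff ℝ ∞ (b i)) (hc : ContDiff ℝ ∞ c) (hf : ContDiff ℝ ∞ f)
    (hu : LocallyIntegrable u μ) {x₀ : F} {O : Set F} (hO : O ∈ 𝓝 x₀)
    (he : ∀ ℓ : F →L[ℝ] ℝ, ℓ ≠ 0 → 0 < (∑ i, a i x₀ * lc ℓ (v i) * lc ℓ (w i)).re)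
    (hw : ∀ φ, ContDiff ℝ ∞ φ → HasCompactSupport φ → tsupport φ ⊆ O →
      ∫ x, u x * (∑ i, (a i x * cX (v i) (cX (w i) φ) x + b i x * cX (w i) φ x) + c x * φ x) ∂μ =
        ∫ x, f x * φ x ∂μ) :
    ∃ O', IsOpen O' ∧ x₀ ∈ O' ∧ ∃ g : F → ℂ, ContDiffOn ℝ ∞ g O' ∧ ∀ᵐ x ∂μ, x ∈ O' → u x = g x := by
  obtain ⟨e⟩ : Nonempty (F ≃L[ℝ] V (Module.finrank ℝ F)) := ⟨toEuclidean⟩
  generalize Module.finrank ℝ F = N at e
  obtain ⟨k, hk, hμ⟩ : ∃ k : NNReal, k ≠ 0 ∧ μ = k • (volume : Measure (V N)).map e.symm :=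
    ⟨_, (Measure.addHaarScalarFactor_pos_of_isAddHaarMeasure _ _).ne',
      Measure.isAddLeftInvariant_eq_smul _ _⟩
  have hm : MeasurableEmbedding e.symm := e.symm.toHomeomorph.measurableEmbedding
  have hI : ∀ G : F → ℂ, ∫ x, G x ∂μ = k • ∫ z, G (e.symm z) := fun G => by
    rw [hμ, integral_smul_nnreal_measure]
    exact congrArg _ (hm.integral_map G)
  have hs : ∀ {G : F → ℂ}, ContDiff ℝ ∞ G → ContDiff ℝ ∞ fun z => G (e.symm z) := fun hG =>
    hG.comp e.symm.contDiff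
  set A : Fin N → Fin N → V N → ℂ := fun p q z => ∑ i, a i (e.symm z) *
    ((e (v i).1 p + I * e (v i).2 p) * (e (w i).1 q + I * e (w i).2 q)) with hA
  have hA1 : ∀ p q, ContDiff ℝ ∞ (A p q) := fun p q =>
    ContDiff.sum fun i _ => (hs (ha i)).mul contDiff_const
  have h1 := symb_open (fun p q => (hA1 p q).continuous) (x₀ := e x₀) fun ξ hξ => by
    refine (he ((innerSL ℝ ξ).comp (e : F →L[ℝ] V N)) fun h => hξ ?_).trans_eq ?_
    · simpa using congrArg (fun ℓ : F →L[ℝ] ℝ => ℓ (e.symm ξ)) h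
    · have h2 : ∀ s : F × F, lc ((innerSL ℝ ξ).comp (e : F →L[ℝ] V N)) s =
          ∑ p, (e s.1 p + I * e s.2 p) * ξ p := fun s => by
        simp [lc, PiLp.inner_apply, add_mul, Finset.sum_add_distrib, Finset.mul_sum,
          mul_assoc]
      simp only [symb, hA, h2, e.symm_apply_apply, mul_assoc, Finset.sum_mul_sum]
      simp only [Finset.sum_mul, Finset.mul_sum]
      refine congrArg re (Finset.sum_comm.trans (Finset.sum_congr rfl fun p _ =>
        Finset.sum_comm.trans (Finset.sum_congr rfl fun q _ => Finset.sum_congr rfl fun i _ => ?_)))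
      ring
  obtain ⟨U, hU1, hU, hU2⟩ := mem_nhds_iff.1 (inter_mem h1
    (e.symm.continuous.continuousAt.preimage_mem_nhds (by rwa [e.symm_apply_apply])))
  obtain ⟨g, hg, hg'⟩ := regS (ellS N) U A
    (fun q z => ∑ i, b i (e.symm z) * (e (w i).1 q + I * e (w i).2 q)) (fun z => c (e.symm z))
    (fun z => u (e.symm z)) (fun z => f (e.symm z)) hU (fun p q => (hA1 p q).contDiffOn)
    (fun q => (ContDiff.sum fun i _ => (hs (hb i)).mul contDiff_const).contDiffOn)
    (hs hc).contDiffOn (hs hf).contDiffOn (fun z hz => (hU1 hz).1) (by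
      refine LocallyIntegrable.locallyIntegrableOn (locallyIntegrable_iff.2 fun K hK => ?_) U
      have h2 := hu.integrableOn_isCompact (hK.image e.symm.continuous)
      rw [hμ, IntegrableOn, Measure.restrict_smul, ENNReal.smul_def,
        integrable_smul_measure (ENNReal.coe_ne_zero.2 hk) ENNReal.coe_ne_top] at h2
      have h3 := hm.integrableOn_map_iff.1 h2
      rwa [preimage_image_eq _ hm.injective] at h3) fun φ hφ => by
      have h2 := hw (fun x => φ (e x)) (hφ.1.comp e.contDiff)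
        (hφ.2.1.comp_homeomorph e.toHomeomorph) fun x hx => by
          simpa using (hU1 (hφ.2.2 (tsupport_comp_subset_preimage φ e.continuous hx))).2
      have h3 := fun (ψ : V N → ℂ) (h : ContDiff ℝ ∞ ψ) => cX_comp h (e : F →L[ℝ] V N) 0
      simp only [ContinuousLinearEquiv.coe_coe, add_zero] at h3
      simp only [hI, h3 _ hφ.1, h3 _ (cX_sm hφ.1 _), e.apply_symm_apply, smul_right_inj hk] at h2
      simp only [Pi.zero_apply, zero_mul, Finset.sum_const_zero, add_zero, ← h2]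
      refine integral_congr_ae (.of_forall fun z => ?_)
      simp only [Qop, hA, cX_cX _ _ hφ.1, cX_pd _ φ, Finset.sum_add_distrib, Finset.sum_mul,
        Finset.mul_sum, mul_assoc]
      congr 3
      · exact (Finset.sum_congr rfl fun p _ => Finset.sum_comm).trans Finset.sum_comm
      · exact Finset.sum_comm
  refine ⟨e ⁻¹' U, hU.preimage e.continuous, hU2, fun x => g (e x),
    hg.comp e.contDiff.contDiffOn fun x hx => hx, ?_⟩
  rw [hμ]
  refine Measure.ae_smul_measure ((hm.ae_map_iff).2 ?_) _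
  simpa using hg'

end Vale.Agent.P299.MR
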