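import Vale.Agent.P299.M2RX1

/-! P299: regularity for systems by adding variables. -/

open MeasureTheory Set Filter Topology Complex
open scoped ContDiff

noncomputable section

namespace Vale.Agent.P299.MR

set_option linter.unusedSectionVars false

variable {F : Type} [NormedAddCommGroup F] [NormedSpace ℝ F] {κ : Type} [Fintype κ]
  [DecidableEq κ]

theorem cX_supp (ξ : F × F) (φ : F → ℂ) : tsupport (cX ξ φ) ⊆ tsupport φ := by
  refine closure_minimal (fun x hx => by_contra fun h => hx ?_) (isClosed_tsupport _)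
  simp [cX, image_eq_zero_of_notMem_tsupport fun h' => h (tsupport_fderiv_subset ℝ h')]

theorem cX_mul (c : ℂ) {φ : F → ℂ} (h : ContDiff ℝ ∞ φ) (ξ : F × F) :
    cX ξ (fun x => c * φ x) = fun x => c * cX ξ φ x := by
  funext x
  simp only [cX, fderiv_const_mul (h.differentiable (by simp) x), smul_apply, smul_eq_mul]
  ring

/-- The coordinate derivatives in the new variables. -/
def dT (I : κ) (h : (κ → ℝ) → ℂ) (τ : κ → ℝ) : ℂ := fderiv ℝ h τ (Pi.single I 1)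

theorem dT_sm {h : (κ → ℝ) → ℂ} (h1 : ContDiff ℝ ∞ h) (I : κ) : ContDiff ℝ ∞ (dT I h) :=
  (h1.fderiv_right (m := ∞) le_rfl).clm_apply contDiff_const

theorem dT_line {h : (κ → ℝ) → ℂ} (h1 : ContDiff ℝ ∞ h) (I : κ) (τ : κ → ℝ) :
    HasDerivAt (fun s : ℝ => h (τ + s • Pi.single I 1)) (dT I h τ) 0 :=
  (h1.differentiable (by simp) τ).hasFDerivAt.hasLineDerivAt _

theorem dT_int {h : (κ → ℝ) → ℂ} (h1 : ContDiff ℝ ∞ h) (h2 : HasCompactSupport h) (I : κ) :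
    Integrable (dT I h) ∧ ∫ τ, dT I h τ = 0 := by
  have h3 : Integrable (dT I h) :=
    (dT_sm h1 I).continuous.integrable_of_hasCompactSupport (h2.fderiv_apply ℝ _)
  have h := integral_mul_fderiv_eq_neg_fderiv_mul_of_integrable (μ := (volume : Measure (κ → ℝ)))
    (f := fun _ => (1 : ℂ)) (g := h) (v := Pi.single I 1) (by simp) (by simp only [one_mul]; exact h3)
    (by simpa using h1.continuous.integrable_of_hasCompactSupport h2)
    (fun _ _ => differentiableAt_const _) (fun x _ => h1.differentiable (by simp) x)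
  exact ⟨h3, by simpa [dT] using h⟩

theorem sysT (u : κ → ℂ) {ψ : (κ → ℝ) → ℂ} {g : κ → κ → (κ → ℝ) → ℂ} (h1 : ContDiff ℝ ∞ ψ)
    (h2 : HasCompactSupport ψ) (h3 : ∀ I J, ContDiff ℝ ∞ (g I J))
    (h4 : ∀ I J, HasCompactSupport (g I J)) :
    ∫ τ, ∑ K, u K * (τ K * ∑ I, (dT I (dT I ψ) τ - g I I τ - ∑ J, τ J * dT I (g I J) τ) -
      ∑ J, τ J * g K J τ) = 0 := by
  have e : ∀ (τ : κ → ℝ) (S R : κ → ℂ), ∑ K, u K * (τ K * ∑ I, S I - R K) =
      ∑ I, ((∑ K, u K * τ K) * S I - u I * R I) := fun τ S R => by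
    simp only [mul_sub, Finset.sum_sub_distrib, ← mul_assoc, ← Finset.sum_mul, ← Finset.mul_sum]
  simp only [e]
  have hτ : ∀ J, ContDiff ℝ ∞ fun τ : κ → ℝ => (τ J : ℂ) := fun J =>
    ofRealCLM.contDiff.comp (contDiff_apply ℝ ℝ J)
  have h5 : ∀ I, ContDiff ℝ ∞ fun τ : κ → ℝ =>
      (∑ K, u K * τ K) * (dT I ψ τ - ∑ J, τ J * g I J τ) - u I * ψ τ := fun I =>
    ((ContDiff.sum fun K _ => contDiff_const.mul (hτ K)).mul ((dT_sm h1 I).sub
      (ContDiff.sum fun J _ => (hτ J).mul (h3 I J)))).sub (contDiff_const.mul h1)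
  have h6 := fun I => dT_int (h5 I) (((h2.fderiv_apply ℝ _).sub (by
    have := HasCompactSupport.finset_sum (s := Finset.univ)
      fun J _ => (h4 I J).mul_left (f := fun τ : κ → ℝ => (τ J : ℂ))
    rwa [Finset.sum_fn] at this)).mul_left.sub h2.mul_left) I
  rw [← Finset.sum_eq_zero (s := Finset.univ) fun I _ => (h6 I).2,
    ← integral_finsetSum _ fun I _ => (h6 I).1]
  refine integral_congr_ae (.of_forall fun τ => Finset.sum_congr rfl fun I _ => ?_)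
  have h7 : ∀ J, HasDerivAt (fun s : ℝ => (((τ + s • Pi.single I 1 : κ → ℝ) J : ℝ) : ℂ))
      (if J = I then 1 else 0) 0 := fun J => by
    refine ((((hasDerivAt_id' (0 : ℝ)).mul_const ((Pi.single I 1 : κ → ℝ) J)).const_add
      (τ J)).ofReal_comp).congr_deriv ?_
    rw [Pi.single_apply]
    split_ifs <;> simp
  refine Eq.trans ?_ (((((HasDerivAt.fun_sum fun K _ => (h7 K).const_mul (u K)).fun_mul
    ((dT_line (dT_sm h1 I) I τ).fun_sub (HasDerivAt.fun_sum fun J _ =>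
      (h7 J).fun_mul (dT_line (h3 I J) I τ)))).fun_sub
        ((dT_line h1 I τ).const_mul (u I))).unique (dT_line (h5 I) I τ)))
  simp only [zero_smul, add_zero, mul_ite, ite_mul, mul_one, one_mul, mul_zero, zero_mul,
    Finset.sum_add_distrib, Finset.sum_ite_eq', Finset.mem_univ, if_true]
  ring

/-- An old direction. -/
def upX (κ : Type) (ξ : F × F) : (F × (κ → ℝ)) × F × (κ → ℝ) := ((ξ.1, 0), ξ.2, 0)

/-- A new direction. -/
def dnX (F : Type) [Zero F] (I : κ) : (F × (κ → ℝ)) × F × (κ → ℝ) := ((0, Pi.single I 1), 0)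

theorem cX_up {φ : F × (κ → ℝ) → ℂ} (h : ContDiff ℝ ∞ φ) (ξ : F × F) (τ : κ → ℝ) :
    cX ξ (fun x => φ (x, τ)) = fun x => cX (upX κ ξ) φ (x, τ) := by
  simpa [upX] using cX_comp h (.inl ℝ F (κ → ℝ)) (0, τ) ξ

theorem cX_dn {φ : F × (κ → ℝ) → ℂ} (h : ContDiff ℝ ∞ φ) (I : κ) (x : F) :
    dT I (fun τ => φ (x, τ)) = fun τ => cX (dnX F I) φ (x, τ) := by
  funext τ
  simpa [cX, dT, dnX, Prod.mk_zero_zero] using congrFun (cX_comp h (.inr ℝ F (κ → ℝ)) (x, 0) (Pi.single I 1, 0)) τ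

theorem sysE {ι : Type} [Fintype ι] (v w : ι → F × F) {a : ι → ℂ}
    (he : ∀ ℓ : F →L[ℝ] ℝ, ℓ ≠ 0 → 0 < (∑ i, a i * lc ℓ (v i) * lc ℓ (w i)).re)
    (ℓ : F × (κ → ℝ) →L[ℝ] ℝ) (hℓ : ℓ ≠ 0) :
    0 < (∑ i, a i * lc ℓ (upX κ (v i)) * lc ℓ (upX κ (w i)) +
      ∑ I, lc ℓ (dnX F I) * lc ℓ (dnX F I)).re := by
  have h1 : ∀ s, lc ℓ (upX κ s) = lc (ℓ.comp (.inl ℝ F (κ → ℝ))) s := fun _ => rfl
  have h2 : ∀ I, lc ℓ (dnX F I) = ℓ (0, Pi.single I 1) := fun I => by simp [lc, dnX]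
  simp only [h1, h2, add_re, ← ofReal_mul, ← ofReal_sum, ofReal_re]
  by_cases h3 : ℓ.comp (.inl ℝ F (κ → ℝ)) = 0
  · simp only [h3, lc, zero_apply, ofReal_zero, mul_zero, add_zero,
      Finset.sum_const_zero, zero_re, zero_add]
    refine (Finset.sum_nonneg fun I _ => mul_self_nonneg _).lt_of_ne' fun h => hℓ ?_
    rw [Finset.sum_eq_zero_iff_of_nonneg fun I _ => mul_self_nonneg _] at h
    refine ContinuousLinearMap.prod_ext h3 (ContinuousLinearMap.coe_injective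
      ((Pi.basisFun ℝ κ).ext fun I => ?_))
    simpa using mul_self_eq_zero.1 (h I (Finset.mem_univ I))
  · exact add_pos_of_pos_of_nonneg (he _ h3) (Finset.sum_nonneg fun I _ => mul_self_nonneg _)

theorem sm_tau (J : κ) : ContDiff ℝ ∞ fun p : F × (κ → ℝ) => (p.2 J : ℂ) :=
  ofRealCLM.contDiff.comp ((contDiff_apply ℝ ℝ J).comp contDiff_snd)

variable [FiniteDimensional ℝ F] [MeasurableSpace F] [BorelSpace F] {μ : Measure F}
  [μ.IsAddHaarMeasure]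

theorem sysL {u : F → ℂ} (hu : Integrable u μ) :
    LocallyIntegrable (fun p : F × (κ → ℝ) => u p.1) (μ.prod volume) :=
  locallyIntegrable_iff.2 fun K hK => by
    have h1 : IntegrableOn (fun _ => (1 : ℂ)) (Prod.snd '' K) :=
      continuousOn_const.integrableOn_compact (hK.image continuous_snd)
    have h2 := hu.mul_prod h1
    rw [← μ.restrict_univ, Measure.prod_restrict] at h2
    simp only [mul_one] at h2
    exact IntegrableOn.mono_set h2 fun p hp => ⟨trivial, p, hp, rfl⟩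

theorem sysW {u : κ → F → ℂ} (hu : ∀ I, Integrable (u I) μ) {φ P f : F × (κ → ℝ) → ℂ}
    {G : κ → κ → F × (κ → ℝ) → ℂ} (h1 : ContDiff ℝ ∞ φ) (h2 : HasCompactSupport φ)
    (hP : ContDiff ℝ ∞ P) (hf : ContDiff ℝ ∞ f) (g1 : ∀ I J, ContDiff ℝ ∞ (G I J))
    (z2 : ∀ p ∉ tsupport φ, P p = 0) (z3 : ∀ I J, ∀ p ∉ tsupport φ, G I J p = 0)
    (hw : ∀ τ : κ → ℝ, ∫ x, ∑ I, u I x * (τ I * P (x, τ) + ∑ J, τ J * G I J (x, τ)) ∂μ =
      ∫ x, f (x, τ) * φ (x, τ) ∂μ) :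
    ∫ p : F × (κ → ℝ), (∑ K, u K p.1 * p.2 K) * (P p + ∑ I, (cX (dnX F I) (cX (dnX F I) φ) p - G I I p -
      ∑ J, p.2 J * cX (dnX F I) (G I J) p)) ∂μ.prod volume = ∫ p, f p * φ p ∂μ.prod volume := by
  have hτ := sm_tau (F := F) (κ := κ)
  have s1 := fun ξ => cX_sm h1 ξ
  have s2 := fun ξ ζ => cX_sm (s1 ζ) ξ
  have s3 := fun I J ξ => cX_sm (g1 I J) ξ
  have z1 : ∀ {ψ : F × (κ → ℝ) → ℂ} (ξ), (∀ p ∉ tsupport φ, ψ p = 0) →
      ∀ p ∉ tsupport φ, cX ξ ψ p = 0 := fun ξ h p hp =>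
    image_eq_zero_of_notMem_tsupport fun h' => hp (closure_minimal
      (fun q (hq : _ ≠ _) => by_contra fun k => hq (h q k)) (isClosed_tsupport _) (cX_supp _ _ h'))
  have z0 : ∀ p ∉ tsupport φ, φ p = 0 := fun p => image_eq_zero_of_notMem_tsupport
  have hi : ∀ Ψ : κ → F × (κ → ℝ) → ℂ, (∀ I, ContDiff ℝ ∞ (Ψ I)) →
      (∀ I, ∀ p ∉ tsupport φ, Ψ I p = 0) →
      Integrable (fun p => ∑ I, u I p.1 * Ψ I p) (μ.prod volume) := fun Ψ a1 a2 =>
    integrable_finsetSum _ fun I _ => (sysL (hu I)).integrable_smul_right_of_hasCompactSupport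
      (a1 I).continuous (.intro h2 (a2 I))
  have c1 : ∀ {ψ : F × (κ → ℝ) → ℂ}, (∀ p ∉ tsupport φ, ψ p = 0) → ∀ x,
      HasCompactSupport fun τ => ψ (x, τ) := fun h x =>
    .intro (h2.isCompact.image continuous_snd) fun τ hτ => h _ fun h' => hτ ⟨_, h', rfl⟩
  have iA := hi (fun I p => p.2 I * P p + ∑ J, p.2 J * G I J p) (fun I => by fun_prop)
    fun I p hp => by simp [z2 p hp, z3 _ _ p hp]
  have iR := hi (fun K p => p.2 K * ∑ I, (cX (dnX F I) (cX (dnX F I) φ) p - G I I p -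
    ∑ J, p.2 J * cX (dnX F I) (G I J) p) - ∑ J, p.2 J * G K J p) (fun I => by fun_prop)
    fun I p hp => by simp [z1 _ (z1 _ z0) p hp, z1 _ (z3 _ _) p hp, z3 _ _ p hp]
  have iG : Integrable (fun p => f p * φ p) (μ.prod volume) :=
    (hf.continuous.mul h1.continuous).integrable_of_hasCompactSupport h2.mul_left
  have e1 := integral_add iA iR
  rw [integral_prod _ iR, integral_prod_symm _ iA, integral_congr_ae (g := fun _ => 0)
    (μ := μ) (.of_forall fun x => by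
      have k := sysT (fun K => u K x) (h1.comp (contDiff_prodMk_right x)) (c1 z0 x)
        (fun I J => (g1 I J).comp (contDiff_prodMk_right x)) fun I J => c1 (z3 I J) x
      simpa only [Function.comp_def, cX_dn h1, cX_dn (s1 _), cX_dn (g1 _ _)] using k),
    integral_zero, add_zero] at e1
  rw [integral_prod_symm _ iG]
  refine (integral_congr_ae (.of_forall fun p => ?_)).trans
    (e1.trans (integral_congr_ae (.of_forall hw)))
  simp only [← Finset.sum_add_distrib, Finset.sum_mul]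
  exact Finset.sum_congr rfl fun K _ => by ring

theorem sysX {u : κ → F → ℂ} {O : Set (F × (κ → ℝ))} (hO : IsOpen O) {x₀ : F} (hx : (x₀, 0) ∈ O)
    {g : F × (κ → ℝ) → ℂ} (hg : ContDiffOn ℝ ∞ g O)
    (hg' : ∀ᵐ p ∂μ.prod volume, p ∈ O → ∑ I, u I p.1 * p.2 I = g p) :
    ∃ O', IsOpen O' ∧ x₀ ∈ O' ∧ ∃ g : κ → F → ℂ, (∀ I, ContDiffOn ℝ ∞ (g I) O') ∧
      ∀ᵐ x ∂μ, x ∈ O' → ∀ I, u I x = g I x := by
  obtain ⟨O₁, h1, O₂, h2, h3⟩ := mem_nhds_prod_iff.1 (hO.mem_nhds hx)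
  obtain ⟨r, hr, h4⟩ := Metric.nhds_basis_closedBall.mem_iff.1 h2
  obtain ⟨O₃, h5, h6, h7⟩ := mem_nhds_iff.1 h1
  have h8 : ∀ I, ∀ x ∈ O₃, (x, (Pi.single I r : κ → ℝ)) ∈ O := fun I x hx =>
    h3 ⟨h5 hx, h4 (by simp [Pi.norm_single, abs_of_pos hr])⟩
  refine ⟨O₃, h6, h7, fun I x => (r : ℂ)⁻¹ * g (x, Pi.single I r), fun I =>
    contDiffOn_const.mul (hg.comp (by fun_prop) (h8 I)), ?_⟩
  filter_upwards [Measure.ae_ae_of_ae_prod hg'] with x hx' hx3 I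
  have h9 : IsOpen {τ : κ → ℝ | (x, τ) ∈ O} := hO.preimage (by fun_prop)
  have h10 : ∑ J, u J x * (Pi.single I r : κ → ℝ) J = g (x, Pi.single I r) :=
    Measure.eqOn_open_of_ae_eq (μ := volume)
    (f := fun τ : κ → ℝ => ∑ I, u I x * τ I) (g := fun τ => g (x, τ))
    ((ae_restrict_iff' h9.measurableSet).2 hx') h9 (by fun_prop)
    (hg.continuousOn.comp (by fun_prop) fun _ h => h) (h8 I x hx3)
  have h11 : (r : ℂ) ≠ 0 := ofReal_ne_zero.2 hr.ne'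
  rw [← h10, Finset.sum_eq_single I (fun J _ h => by simp [h])
    (by simp), Pi.single_eq_same, mul_comm, mul_inv_cancel_right₀ h11]

theorem sysA {ι : Type} [Fintype ι] (a φ1 φ2 : ι → ℂ) (B : ι → κ → κ → ℂ) (C : κ → κ → ℂ)
    (τ d1 d2 : κ → ℂ) (φ3 : κ → ι → ℂ) (φ : ℂ) :
    ∑ i, (a i * φ2 i + (-∑ I, B i I I) * φ1 i) +
      (∑ i, ∑ I, (-∑ J, B i I J * τ J) * φ3 I i + ∑ I, (d2 I + (-∑ J, C I J * τ J) * d1 I)) +
      (-∑ I, C I I) * φ = ∑ i, a i * φ2 i + ∑ I, (d2 I - (∑ i, B i I I * φ1 i + C I I * φ) -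
        ∑ J, τ J * (∑ i, B i I J * φ3 I i + C I J * d1 I)) := by
  have h1 : ∑ I, ∑ J, ∑ i, τ J * (B i I J * φ3 I i) = ∑ i, ∑ I, ∑ J, B i I J * τ J * φ3 I i :=
    ((Finset.sum_congr rfl fun I _ => Finset.sum_comm).trans Finset.sum_comm).trans (by
      simp only [mul_left_comm, mul_assoc])
  have h2 : ∑ I, ∑ i, B i I I * φ1 i = ∑ i, ∑ I, B i I I * φ1 i := Finset.sum_comm
  have h3 : ∑ I, ∑ J, τ J * (C I J * d1 I) = ∑ I, ∑ J, C I J * τ J * d1 I := by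
    simp only [mul_left_comm, mul_assoc]
  simp only [Finset.sum_add_distrib, Finset.sum_sub_distrib, mul_add, Finset.mul_sum,
    neg_mul, Finset.sum_neg_distrib, Finset.sum_mul, h1, h2, h3]
  ring

theorem dn_line {ψ : F × (κ → ℝ) → ℂ} (h : ContDiff ℝ ∞ ψ) (K : κ) (x : F) (τ : κ → ℝ) :
    HasDerivAt (fun s : ℝ => ψ (x, τ + s • Pi.single K 1)) (cX (dnX F K) ψ (x, τ)) 0 :=
  (dT_line (h.comp (contDiff_prodMk_right x)) K τ).congr_deriv (congrFun (cX_dn h K x) τ)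

theorem dn_lin {ι : Type} [Fintype ι] {b : ι → F → ℂ} {c : F → ℂ} {ψ : ι → F × (κ → ℝ) → ℂ}
    {φ : F × (κ → ℝ) → ℂ} (h1 : ∀ i, ContDiff ℝ ∞ (ψ i)) (h2 : ContDiff ℝ ∞ φ)
    (h3 : ContDiff ℝ ∞ fun p : F × (κ → ℝ) => ∑ i, b i p.1 * ψ i p + c p.1 * φ p) (K : κ)
    (p : F × (κ → ℝ)) : cX (dnX F K) (fun p => ∑ i, b i p.1 * ψ i p + c p.1 * φ p) p =
      ∑ i, b i p.1 * cX (dnX F K) (ψ i) p + c p.1 * cX (dnX F K) φ p :=
  (dn_line h3 K p.1 p.2).unique ((HasDerivAt.fun_sum fun i _ =>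
    (dn_line (h1 i) K p.1 p.2).const_mul (b i p.1)).fun_add
      ((dn_line h2 K p.1 p.2).const_mul (c p.1)))

theorem sysV {ι : Type} [Fintype ι] (v w : ι → F × F)
    {a : ι → F → ℂ} {B : ι → κ → κ → F → ℂ} {C : κ → κ → F → ℂ} {u f : κ → F → ℂ}
    (ha : ∀ i, ContDiff ℝ ∞ (a i)) (hB : ∀ i I J, ContDiff ℝ ∞ (B i I J))
    (hC : ∀ I J, ContDiff ℝ ∞ (C I J)) (hf : ∀ I, ContDiff ℝ ∞ (f I))
    (hu : ∀ I, Integrable (u I) μ) {O : Set F}
    (hw : ∀ t : κ → F → ℂ, (∀ I, ContDiff ℝ ∞ (t I) ∧ HasCompactSupport (t I) ∧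
      tsupport (t I) ⊆ O) → ∫ x, ∑ I, u I x * (∑ i, a i x * cX (v i) (cX (w i) (t I)) x +
        ∑ J, (∑ i, B i I J x * cX (w i) (t J) x + C I J x * t J x)) ∂μ =
        ∫ x, ∑ I, f I x * t I x ∂μ) {φ : F × (κ → ℝ) → ℂ} (h1 : ContDiff ℝ ∞ φ)
    (h2 : HasCompactSupport φ) (h3 : tsupport φ ⊆ O ×ˢ univ) :
    ∫ p : F × (κ → ℝ), (∑ K, u K p.1 * p.2 K) *
      (∑ i, (a i p.1 * cX (upX κ (v i)) (cX (upX κ (w i)) φ) p +
        (-∑ I, B i I I p.1) * cX (upX κ (w i)) φ p) +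
      (∑ i, ∑ I, (-∑ J, B i I J p.1 * p.2 J) * cX (dnX F I) (cX (upX κ (w i)) φ) p +
        ∑ I, (cX (dnX F I) (cX (dnX F I) φ) p + (-∑ J, C I J p.1 * p.2 J) * cX (dnX F I) φ p)) +
      (-∑ I, C I I p.1) * φ p) ∂μ.prod volume =
      ∫ p : F × (κ → ℝ), (∑ I, f I p.1 * p.2 I) * φ p ∂μ.prod volume := by
  have hτ := sm_tau (F := F) (κ := κ)
  have s1 := fun ξ => cX_sm h1 ξ
  have s2 := fun ξ ζ => cX_sm (s1 ζ) ξ
  have z0 : ∀ p ∉ tsupport φ, φ p = 0 := fun p => image_eq_zero_of_notMem_tsupport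
  have z1 : ∀ ξ, ∀ p ∉ tsupport φ, cX ξ φ p = 0 := fun ξ p hp =>
    image_eq_zero_of_notMem_tsupport fun h => hp (cX_supp _ _ h)
  have z2 : ∀ ξ ζ, ∀ p ∉ tsupport φ, cX ξ (cX ζ φ) p = 0 := fun ξ ζ p hp =>
    image_eq_zero_of_notMem_tsupport fun h => hp (cX_supp _ _ (cX_supp _ _ h))
  have g1 : ∀ I J, ContDiff ℝ ∞ fun p : F × (κ → ℝ) =>
      ∑ i, B i I J p.1 * cX (upX κ (w i)) φ p + C I J p.1 * φ p := fun I J =>
    (ContDiff.sum fun i _ => ((hB i I J).comp contDiff_fst).mul (s1 _)).add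
      (((hC I J).comp contDiff_fst).mul h1)
  have := sysW hu h1 h2 (f := fun p => ∑ I, f I p.1 * p.2 I)
    (P := fun p => ∑ i, a i p.1 * cX (upX κ (v i)) (cX (upX κ (w i)) φ) p)
    (ContDiff.sum fun i _ => ((ha i).comp contDiff_fst).mul (s2 _ _))
    (ContDiff.sum fun I _ => ((hf I).comp contDiff_fst).mul (hτ I)) g1
    (fun p hp => by simp [z2 _ _ p hp]) (fun I J p hp => by simp [z0 p hp, z1 _ p hp]) fun τ => by
      have k1 : ∀ {ψ : F × (κ → ℝ) → ℂ}, ContDiff ℝ ∞ ψ → ContDiff ℝ ∞ fun x => ψ (x, τ) :=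
        fun h => h.comp (contDiff_prodMk_left τ)
      have k := hw (fun I x => τ I * φ (x, τ)) fun I => ⟨contDiff_const.mul (k1 h1),
        .intro (h2.isCompact.image continuous_fst) fun x hx => by
          rw [z0 _ fun h' => hx ⟨_, h', rfl⟩, mul_zero],
        tsupport_mul_subset_right.trans fun x hx => (h3 (tsupport_comp_subset_preimage φ
          (f := fun x => (x, τ)) (by fun_prop) hx)).1⟩
      simp only [cX_mul _ (k1 h1), cX_up h1, cX_mul _ (k1 (s1 _)), cX_up (s1 _)] at k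
      have e : ∀ (c : ℂ) (s t : ι → ℂ), ∑ i, s i * (c * t i) = c * ∑ i, s i * t i := fun c s t => by
        simp only [Finset.mul_sum, mul_left_comm]
      simp only [e, mul_left_comm (C _ _ _), ← mul_add] at k
      simp only [Finset.sum_mul, mul_assoc]
      exact k
  refine Eq.trans (integral_congr_ae (.of_forall fun p => ?_)) this
  have g2 := fun I J => dn_lin (fun _ => s1 _) h1 (g1 I J)
  simp only [g2]
  rw [sysA _ _ _ (fun i I J => B i I J p.1) fun I J => C I J p.1]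

theorem sysF {ι : Type} [Fintype ι] (v w : ι → F × F)
    {a : ι → F → ℂ} {B : ι → κ → κ → F → ℂ} {C : κ → κ → F → ℂ} {u f : κ → F → ℂ}
    (ha : ∀ i, ContDiff ℝ ∞ (a i)) (hB : ∀ i I J, ContDiff ℝ ∞ (B i I J))
    (hC : ∀ I J, ContDiff ℝ ∞ (C I J)) (hf : ∀ I, ContDiff ℝ ∞ (f I))
    (hu : ∀ I, Integrable (u I) μ) {x₀ : F} {O : Set F} (hO : O ∈ 𝓝 x₀)
    (he : ∀ ℓ : F →L[ℝ] ℝ, ℓ ≠ 0 → 0 < (∑ i, a i x₀ * lc ℓ (v i) * lc ℓ (w i)).re)
    (hw : ∀ t : κ → F → ℂ, (∀ I, ContDiff ℝ ∞ (t I) ∧ HasCompactSupport (t I) ∧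
      tsupport (t I) ⊆ O) → ∫ x, ∑ I, u I x * (∑ i, a i x * cX (v i) (cX (w i) (t I)) x +
        ∑ J, (∑ i, B i I J x * cX (w i) (t J) x + C I J x * t J x)) ∂μ =
        ∫ x, ∑ I, f I x * t I x ∂μ) :
    ∃ O', IsOpen O' ∧ x₀ ∈ O' ∧ ∃ g : κ → F → ℂ, (∀ I, ContDiffOn ℝ ∞ (g I) O') ∧
      ∀ᵐ x ∂μ, x ∈ O' → ∀ I, u I x = g I x := by
  have hτ := sm_tau (F := F) (κ := κ)
  have k : ∀ {c : κ → F → ℂ}, (∀ I, ContDiff ℝ ∞ (c I)) →
      (ContDiff ℝ ∞ fun p : F × (κ → ℝ) => ∑ I, c I p.1) ∧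
        ContDiff ℝ ∞ fun p : F × (κ → ℝ) => ∑ I, c I p.1 * p.2 I := fun h =>
    ⟨.sum fun I _ => (h I).comp contDiff_fst, .sum fun I _ => ((h I).comp contDiff_fst).mul (hτ I)⟩
  obtain ⟨O', hO', hx, g, hg, hg'⟩ := regF (μ.prod volume) (ι := ι ⊕ (ι × κ) ⊕ κ)
    (Sum.elim (fun i => upX κ (v i)) (Sum.elim (fun i => dnX F i.2) (dnX F)))
    (Sum.elim (fun i => upX κ (w i)) (Sum.elim (fun i => upX κ (w i.1)) (dnX F)))
    (a := Sum.elim (fun i p => a i p.1)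
      (Sum.elim (fun i p => -∑ J, B i.1 i.2 J p.1 * p.2 J) fun _ _ => 1))
    (b := Sum.elim (fun i p => -∑ I, B i I I p.1)
      (Sum.elim (fun _ _ => 0) fun I p => -∑ J, C I J p.1 * p.2 J))
    (c := fun p => -∑ I, C I I p.1) (u := fun p => ∑ I, u I p.1 * p.2 I)
    (f := fun p => ∑ I, f I p.1 * p.2 I)
    (by rintro (i | i | i)
        exacts [(ha i).comp contDiff_fst, (k (hB _ _)).2.neg, contDiff_const])
    (by rintro (i | i | i)
        exacts [(k fun I => hB i I I).1.neg, contDiff_const, (k (hC _)).2.neg])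
    (k fun I => hC I I).1.neg (k hf).2
    (locallyIntegrable_finsetSum _ fun I _ => (sysL (hu I)).mul_continuous (hτ I).continuous)
    (x₀ := (x₀, 0)) (prod_mem_nhds hO univ_mem)
    (fun ℓ hℓ => by
      simpa only [Fintype.sum_sum_type, Sum.elim_inl, Sum.elim_inr, Pi.zero_apply, ofReal_zero,
        mul_zero, Finset.sum_const_zero, neg_zero, zero_mul, zero_add, one_mul]
        using sysE v w he ℓ hℓ) fun φ h1 h2 h3 => by
      simpa only [Fintype.sum_sum_type, Fintype.sum_prod_type, Sum.elim_inl, Sum.elim_inr,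
        zero_mul, add_zero, one_mul] using sysV v w ha hB hC hf hu hw h1 h2 h3
  exact sysX hO' hx hg hg'

end Vale.Agent.P299.MR
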