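import Vale.Agent.P271.Stmt

/-!
Dual line bundles and smooth Hermitian metrics with semipositive curvature.
-/

open scoped ContDiff

noncomputable section

namespace Vale.Agent.P299.Stmt

open Vale.Agent.P271.Stmt

/-- The dual line bundle: the same cover with inverse transition functions. -/
def dual {X : Type} (L : Cocycle X) : Cocycle X where
  ι := L.ι
  U := L.U
  g i j p := (L.g i j p)⁻¹

/-- The complex Hessian of a real function on the tangent vector `v`, up to the factor four: the
Laplacian at `0` of `ζ ↦ F (z + ζ v)`. -/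
def levi {n : ℕ} (F : (Fin n → ℂ) → ℝ) (z v : Fin n → ℂ) : ℝ :=
  fderiv ℝ (fderiv ℝ F) z v v + fderiv ℝ (fderiv ℝ F) z (Complex.I • v) (Complex.I • v)

variable (n : ℕ) {X : Type} [TopologicalSpace X] [ChartedSpace (Fin n → ℂ) X]

/-- A smooth Hermitian metric on `L` with semipositive curvature: `h i` is the squared length of
the frame on `U i`, so that a section with local expressions `s i` has squared length
`h i * ‖s i‖ ^ 2`; the function `-log (h i)` has nonnegative complex Hessian in every chart. -/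
structure IsSemipositiveMetric (L : Cocycle X) (h : L.ι → X → ℝ) : Prop where
  pos : ∀ i, ∀ p ∈ L.U i, 0 < h i p
  compat : ∀ i j, ∀ p ∈ L.U i ∩ L.U j, h j p = h i p * ‖L.g i j p‖ ^ 2
  smooth : ∀ i (a : X), ContDiffOn ℝ ∞ (h i ∘ (chartAt (Fin n → ℂ) a).symm)
    ((chartAt (Fin n → ℂ) a).target ∩ (chartAt (Fin n → ℂ) a).symm ⁻¹' L.U i)
  semipos : ∀ i (a : X),
    ∀ z ∈ (chartAt (Fin n → ℂ) a).target ∩ (chartAt (Fin n → ℂ) a).symm ⁻¹' L.U i, ∀ v,
      0 ≤ levi (fun w => -Real.log (h i ((chartAt (Fin n → ℂ) a).symm w))) z v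

end Vale.Agent.P299.Stmt
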